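import Vale.Agent.P207.Low.Abs

/-!
# P207, block LOW: restriction of the ladder algebra to a stable submodule
-/

noncomputable section

namespace Vale.Agent.P207.Low

open Vale.Agent.P207.H662

variable {W : Type*} [AddCommGroup W] [Module ℝ W]

/-- the inner product of a submodule -/
def ipSub (ip : W →ₗ[ℝ] W →ₗ[ℝ] ℝ) (N : Submodule ℝ W) : N →ₗ[ℝ] N →ₗ[ℝ] ℝ :=
  (ip.compl₁₂ N.subtype N.subtype)

@[simp] theorem ipSub_apply (ip : W →ₗ[ℝ] W →ₗ[ℝ] ℝ) (N : Submodule ℝ W) (u v : N) :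
    ipSub ip N u v = ip (u : W) (v : W) := rfl

/-- restriction of the operators of one eigenvalue -/
def lad1Sub {ip : W →ₗ[ℝ] W →ₗ[ℝ] ℝ} {X : W →ₗ[ℝ] W} {κ q : ℝ} (L : Lad1 W ip X κ q)
    (N : Submodule ℝ W) (hX : ∀ u ∈ N, X u ∈ N) (hΔ : ∀ u ∈ N, L.Δ u ∈ N)
    (hE : ∀ u ∈ N, L.E u ∈ N) (hS : ∀ u ∈ N, L.S u ∈ N) :
    Lad1 N (ipSub ip N) (X.restrict hX) κ q where
  Δ := L.Δ.restrict hΔ
  E := L.E.restrict hE
  S := L.S.restrict hS
  Δ_symm := fun f g => L.Δ_symm f g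
  S_symm := fun f g => L.S_symm f g
  E_adj := fun f g => L.E_adj f g
  X_Δ := fun f => Subtype.ext (L.X_Δ f)
  X_E := fun f => Subtype.ext (L.X_E f)
  X_S := fun f => Subtype.ext (L.X_S f)
  pos := fun r s => L.pos r s

/-- **the ladder algebra of a stable submodule** -/
def sub (L : Lad W) (N : Submodule ℝ W) (hN : Stable L N) : Lad N where
  ip := ipSub L.ip N
  symm := fun f g => L.symm f g
  nonneg := fun f => L.nonneg f
  X := L.X.restrict hN.X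
  skew := fun f g => L.skew f g
  e := L.e
  d := L.d
  L1 := lad1Sub L.L1 N hN.X hN.Δ1 hN.E1 hN.S1
  L2 := lad1Sub L.L2 N hN.X hN.Δ2 hN.E2 hN.S2
  deg2 := fun f => Subtype.ext (L.deg2 f)
  deg := fun f => Subtype.ext (L.deg f)
  comm := fun f => Subtype.ext (L.comm f)
  comm21 := fun f => Subtype.ext (L.comm21 f)

variable {L : Lad W} {N : Submodule ℝ W} {hN : Stable L N}

@[simp] theorem sub_ip (u v : N) : (sub L N hN).ip u v = L.ip (u : W) (v : W) := rfl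
@[simp] theorem sub_X (u : N) : (((sub L N hN).X u : N) : W) = L.X (u : W) := rfl
@[simp] theorem sub_Δ1 (u : N) : (((sub L N hN).L1.Δ u : N) : W) = L.L1.Δ (u : W) := rfl
@[simp] theorem sub_E1 (u : N) : (((sub L N hN).L1.E u : N) : W) = L.L1.E (u : W) := rfl
@[simp] theorem sub_S1 (u : N) : (((sub L N hN).L1.S u : N) : W) = L.L1.S (u : W) := rfl
@[simp] theorem sub_Δ2 (u : N) : (((sub L N hN).L2.Δ u : N) : W) = L.L2.Δ (u : W) := rfl
@[simp] theorem sub_E2 (u : N) : (((sub L N hN).L2.E u : N) : W) = L.L2.E (u : W) := rfl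
@[simp] theorem sub_S2 (u : N) : (((sub L N hN).L2.S u : N) : W) = L.L2.S (u : W) := rfl
@[simp] theorem sub_e : (sub L N hN).e = L.e := rfl
@[simp] theorem sub_d : (sub L N hN).d = L.d := rfl
@[simp] theorem sub_dim : dim (sub L N hN) = dim L := rfl
@[simp] theorem sub_D (u : N) : (((sub L N hN).D u : N) : W) = L.D (u : W) := rfl
@[simp] theorem sub_Lam (u : N) : (((sub L N hN).Lam u : N) : W) = L.Lam (u : W) := rfl

theorem sub_qf1 (f F G : N) : (sub L N hN).L1.qf f F G = L.L1.qf (f : W) F G := rfl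
theorem sub_qf2 (f F G : N) : (sub L N hN).L2.qf f F G = L.L2.qf (f : W) F G := rfl

theorem sub_PP (f F₁ G₁ F₂ G₂ : N) :
    PP (sub L N hN) f F₁ G₁ F₂ G₂ = PP L (f : W) F₁ G₁ F₂ G₂ := rfl

theorem sub_P1 (f F G : N) : P1 (sub L N hN) f F G = P1 L (f : W) F G := rfl

theorem sub_typ {p q : ℝ} {u : N} : Typ (sub L N hN) p q u ↔ Typ L p q (u : W) := by
  constructor
  · intro h
    exact ⟨congrArg Subtype.val h.D2, congrArg Subtype.val h.D⟩
  · intro h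
    exact ⟨Subtype.ext h.D2, Subtype.ext h.D⟩

theorem sub_TT {u : N} : TT (sub L N hN) u ↔ TT L (u : W) := by
  constructor
  · intro h
    exact ⟨sub_typ.1 h.typ, congrArg Subtype.val h.div⟩
  · intro h
    exact ⟨sub_typ.2 h.typ, Subtype.ext h.div⟩

/-- intersection of stable submodules -/
theorem Stable.inf {M N : Submodule ℝ W} (hM : Stable L M) (hN : Stable L N) :
    Stable L (M ⊓ N) where
  X u hu := ⟨hM.X u hu.1, hN.X u hu.2⟩
  Δ1 u hu := ⟨hM.Δ1 u hu.1, hN.Δ1 u hu.2⟩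
  E1 u hu := ⟨hM.E1 u hu.1, hN.E1 u hu.2⟩
  S1 u hu := ⟨hM.S1 u hu.1, hN.S1 u hu.2⟩
  Δ2 u hu := ⟨hM.Δ2 u hu.1, hN.Δ2 u hu.2⟩
  E2 u hu := ⟨hM.E2 u hu.1, hN.E2 u hu.2⟩
  S2 u hu := ⟨hM.S2 u hu.1, hN.S2 u hu.2⟩

/-- the eigenspace of `Λ` -/
def eigLam (L : Lad W) (lam : ℝ) : Submodule ℝ W where
  carrier := {u | L.Lam u = lam • u}
  add_mem' := by
    intro a b ha hb
    change L.Lam (a + b) = lam • (a + b)
    rw [map_add, smul_add]
    exact congrArg₂ (· + ·) ha hb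
  zero_mem' := by
    change L.Lam 0 = lam • 0
    rw [map_zero, smul_zero]
  smul_mem' := by
    intro c a ha
    change L.Lam (c • a) = lam • c • a
    rw [map_smul, smul_comm]
    exact congrArg (c • ·) ha

theorem mem_eigLam {lam : ℝ} {u : W} : u ∈ eigLam L lam ↔ L.Lam u = lam • u := Iff.rfl

theorem E2_eq (L : Lad W) (f : W) :
    L.L2.E f = (1 / 2 : ℝ) • (L.X (L.L2.Δ f) - L.L2.Δ (L.X f) - L.d • L.X f) := by
  rw [L.L2.X_Δ]; module

theorem E1_eq (L : Lad W) (f : W) :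
    L.L1.E f = (1 / 2 : ℝ) • (L.X (L.L1.Δ f) - L.L1.Δ (L.X f) - L.e • L.X f) := by
  rw [L.L1.X_Δ]; module

theorem S1_eq (L : Lad W) (f : W) :
    L.L1.S f = L.X (L.L1.E f) - L.L1.E (L.X f) - (1 : ℝ) • L.L1.Δ f := by
  rw [L.L1.X_E]; module

theorem S2_eq (L : Lad W) (f : W) :
    L.L2.S f = L.X (L.L2.E f) - L.L2.E (L.X f) - (4 : ℝ) • L.L2.Δ f := by
  rw [L.L2.X_E]; module

/-- stability under `X, Δ₁, Δ₂` is enough -/
theorem Stable.of {N : Submodule ℝ W} (hX : ∀ u ∈ N, L.X u ∈ N) (h1 : ∀ u ∈ N, L.L1.Δ u ∈ N)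
    (h2 : ∀ u ∈ N, L.L2.Δ u ∈ N) : Stable L N := by
  have e1 : ∀ u ∈ N, L.L1.E u ∈ N := fun u hu => by
    rw [E1_eq]
    exact N.smul_mem _ (N.sub_mem (N.sub_mem (hX _ (h1 u hu)) (h1 _ (hX u hu)))
      (N.smul_mem _ (hX u hu)))
  have e2 : ∀ u ∈ N, L.L2.E u ∈ N := fun u hu => by
    rw [E2_eq]
    exact N.smul_mem _ (N.sub_mem (N.sub_mem (hX _ (h2 u hu)) (h2 _ (hX u hu)))
      (N.smul_mem _ (hX u hu)))
  refine ⟨hX, h1, e1, ?_, h2, e2, ?_⟩
  · intro u hu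
    rw [S1_eq]
    exact N.sub_mem (N.sub_mem (hX _ (e1 u hu)) (e1 _ (hX u hu))) (N.smul_mem _ (h1 u hu))
  · intro u hu
    rw [S2_eq]
    exact N.sub_mem (N.sub_mem (hX _ (e2 u hu)) (e2 _ (hX u hu))) (N.smul_mem _ (h2 u hu))

theorem stable_eigLam (L : Lad W) (lam : ℝ) : Stable L (eigLam L lam) := by
  refine Stable.of ?_ ?_ ?_
  · intro u hu
    rw [mem_eigLam] at hu ⊢
    rw [← L.X_Lam, hu, map_smul]
  · intro u hu
    rw [mem_eigLam] at hu ⊢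
    rw [← L.D1_Lam, hu, map_smul]
  · intro u hu
    rw [mem_eigLam] at hu ⊢
    rw [← L.D2_Lam, hu, map_smul]

end Vale.Agent.P207.Low
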