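import Vale.Agent.P207.H662.Lad

/-!
# P207, block LOW: abstract assembly of the positivity on one eigenspace of the Casimir operator

`L : Lad W` is the ladder algebra (H662), `f = φ + g + h` with `φ` of type `(0,0)`, `g` of type
`(2,0)`, `h` of type `(2,2)` and divergence free.  The quadratic form of the test fields
`y = V₁ F₁ + H₁ G₁ + V₂ F₂ + H₂ G₂`, divided by the dimension `n`, is `PP L f F₁ G₁ F₂ G₂`.
-/

noncomputable section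

namespace Vale.Agent.P207.Low

open Vale.Agent.P207.H662

variable {W : Type*} [AddCommGroup W] [Module ℝ W]

/-- a submodule which is stable under the operators of the ladder algebra -/
structure Stable (L : Lad W) (N : Submodule ℝ W) : Prop where
  X : ∀ u ∈ N, L.X u ∈ N
  Δ1 : ∀ u ∈ N, L.L1.Δ u ∈ N
  E1 : ∀ u ∈ N, L.L1.E u ∈ N
  S1 : ∀ u ∈ N, L.L1.S u ∈ N
  Δ2 : ∀ u ∈ N, L.L2.Δ u ∈ N
  E2 : ∀ u ∈ N, L.L2.E u ∈ N
  S2 : ∀ u ∈ N, L.L2.S u ∈ N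

/-- the module generated by `s` -/
def Mod (L : Lad W) (s : Set W) : Submodule ℝ W := sInf {N | s ⊆ N ∧ Stable L N}

section Mod

variable (L : Lad W) (s : Set W)

theorem subset_Mod : s ⊆ Mod L s := by
  intro u hu
  rw [SetLike.mem_coe, Mod, Submodule.mem_sInf]
  exact fun N hN => hN.1 hu

theorem stable_Mod : Stable L (Mod L s) where
  X u hu := by
    rw [Mod, Submodule.mem_sInf] at hu ⊢
    exact fun N hN => hN.2.X u (hu N hN)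
  Δ1 u hu := by
    rw [Mod, Submodule.mem_sInf] at hu ⊢
    exact fun N hN => hN.2.Δ1 u (hu N hN)
  E1 u hu := by
    rw [Mod, Submodule.mem_sInf] at hu ⊢
    exact fun N hN => hN.2.E1 u (hu N hN)
  S1 u hu := by
    rw [Mod, Submodule.mem_sInf] at hu ⊢
    exact fun N hN => hN.2.S1 u (hu N hN)
  Δ2 u hu := by
    rw [Mod, Submodule.mem_sInf] at hu ⊢
    exact fun N hN => hN.2.Δ2 u (hu N hN)
  E2 u hu := by
    rw [Mod, Submodule.mem_sInf] at hu ⊢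
    exact fun N hN => hN.2.E2 u (hu N hN)
  S2 u hu := by
    rw [Mod, Submodule.mem_sInf] at hu ⊢
    exact fun N hN => hN.2.S2 u (hu N hN)

variable {L s}

theorem Mod_le {N : Submodule ℝ W} (h : s ⊆ N) (hN : Stable L N) : Mod L s ≤ N :=
  sInf_le ⟨h, hN⟩

theorem Mod_mono {t : Set W} (h : s ⊆ t) : Mod L s ≤ Mod L t :=
  Mod_le (h.trans (subset_Mod L t)) (stable_Mod L t)

end Mod

variable (L : Lad W)

/-- the dimension of the manifold -/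
def dim : ℝ := L.e + L.d + 1

/-- functions of type `(p, q)`: degree `p` on the unit sphere, leafwise degree `q` -/
structure Typ (p q : ℝ) (u : W) : Prop where
  D2 : L.L2.Δ u = (q * (q + L.d - 1)) • u
  D : L.D u = (p * (p + dim L - 2)) • u

/-- functions of type `(2,2)` which are divergence free -/
structure TT (h : W) : Prop where
  typ : Typ L 2 2 h
  div : L.D (L.X h) = (3 * (3 + dim L - 2)) • L.X h

/-- the part of the quadratic form which belongs to the eigenvalue `1` -/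
def P1 (f F G : W) : ℝ := L.L1.qf f F G - L.ip (L.L1.Δ f) f + L.e * L.ip f f

/-- the part of the quadratic form which belongs to the eigenvalue `4` -/
def P2 (f F G : W) : ℝ := L.L2.qf f F G - L.ip (L.L2.Δ f) f + L.d * L.ip f f

/-- the quadratic form -/
def PP (f F₁ G₁ F₂ G₂ : W) : ℝ := P1 L f F₁ G₁ + P2 L f F₂ G₂

section Orth

variable {L} {M N : Submodule ℝ W}

/-- orthogonal submodules -/
def Perp (L : Lad W) (M N : Submodule ℝ W) : Prop := ∀ u ∈ M, ∀ v ∈ N, L.ip u v = 0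

theorem Perp.symm (h : Perp L M N) : Perp L N M := fun u hu v hv => by rw [L.symm, h v hv u hu]

theorem nsq_add {κ q : ℝ} (L1 : Lad1 W L.ip L.X κ q) (a b c e : W) :
    L1.nsq (a + c) (b + e) = L1.nsq a b + L1.nsq c e + 2 * L1.inn a b c e := by
  have h1 : L.ip (L1.Δ c) a = L.ip (L1.Δ a) c := by rw [L1.Δ_symm, L.symm]
  have h2 : L.ip (L1.S e) b = L.ip (L1.S b) e := by rw [L1.S_symm, L.symm]
  unfold Lad1.nsq Lad1.inn
  simp only [map_add, LinearMap.add_apply]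
  rw [h1, h2]
  ring

theorem inn_add {κ q : ℝ} (L1 : Lad1 W L.ip L.X κ q) (a b a' b' c e c' e' : W) :
    L1.inn (a + a') (b + b') (c + c') (e + e') = L1.inn a b c e + L1.inn a' b' c' e'
      + L1.inn a b c' e' + L1.inn a' b' c e := by
  unfold Lad1.inn
  simp only [map_add, LinearMap.add_apply]
  ring

/-- fields made of orthogonal modules are orthogonal -/
theorem inn_perp {κ q : ℝ} (L1 : Lad1 W L.ip L.X κ q) (hP : Perp L M N)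
    (hΔ : ∀ u ∈ M, L1.Δ u ∈ M) (hE : ∀ u ∈ M, L1.E u ∈ M) (hE' : ∀ u ∈ N, L1.E u ∈ N)
    (hS : ∀ u ∈ M, L1.S u ∈ M)
    {a b c e : W} (ha : a ∈ M) (hb : b ∈ M) (hc : c ∈ N) (he : e ∈ N) :
    L1.inn a b c e = 0 := by
  unfold Lad1.inn
  rw [hP _ (hΔ a ha) _ hc, hP _ ha _ (hE' e he), hP.symm _ hc _ (hE b hb), hP _ (hS b hb) _ he]
  ring

theorem qf_add {κ q : ℝ} (L1 : Lad1 W L.ip L.X κ q) (hP : Perp L M N)
    (hX : ∀ u ∈ M, L.X u ∈ M) (hX' : ∀ u ∈ N, L.X u ∈ N)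
    (hΔ : ∀ u ∈ M, L1.Δ u ∈ M) (hΔ' : ∀ u ∈ N, L1.Δ u ∈ N)
    (hE : ∀ u ∈ M, L1.E u ∈ M) (hE' : ∀ u ∈ N, L1.E u ∈ N)
    (hS : ∀ u ∈ M, L1.S u ∈ M) (hS' : ∀ u ∈ N, L1.S u ∈ N)
    {f F G f' F' G' : W} (hf : f ∈ M) (hF : F ∈ M) (hG : G ∈ M) (hf' : f' ∈ N) (hF' : F' ∈ N)
    (hG' : G' ∈ N) :
    L1.qf (f + f') (F + F') (G + G') = L1.qf f F G + L1.qf f' F' G' := by
  have e1 : L.X (f + f') = L.X f + L.X f' := map_add _ _ _
  have e2 : -(2 : ℝ) • (f + f') = -(2 : ℝ) • f + -(2 : ℝ) • f' := smul_add _ _ _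
  have e3 : L.X (F + F') - κ • (G + G') = (L.X F - κ • G) + (L.X F' - κ • G') := by
    rw [map_add, smul_add]; abel
  have e4 : L.X (G + G') - (F + F') = (L.X G - F) + (L.X G' - F') := by
    rw [map_add]; abel
  have m1 : L.X F - κ • G ∈ M := M.sub_mem (hX _ hF) (M.smul_mem _ hG)
  have m2 : L.X G - F ∈ M := M.sub_mem (hX _ hG) hF
  have m1' : L.X F' - κ • G' ∈ N := N.sub_mem (hX' _ hF') (N.smul_mem _ hG')
  have m2' : L.X G' - F' ∈ N := N.sub_mem (hX' _ hG') hF'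
  unfold Lad1.qf
  rw [e1, e2, e3, e4, inn_add, nsq_add, nsq_add,
    inn_perp L1 hP hΔ hE hE' hS (hX _ hf) (M.smul_mem _ hf) hF' hG',
    inn_perp L1 hP.symm hΔ' hE' hE hS' (hX' _ hf') (N.smul_mem _ hf') hF hG,
    inn_perp L1 hP hΔ hE hE' hS m1 m2 m1' m2',
    inn_perp L1 hP hΔ hE hE' hS hF hG hF' hG']
  ring

/-- **the quadratic form of a sum of elements of two orthogonal modules** -/
theorem PP_add (hP : Perp L M N) (hM : Stable L M) (hN : Stable L N)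
    {f F₁ G₁ F₂ G₂ f' F₁' G₁' F₂' G₂' : W} (hf : f ∈ M) (h1 : F₁ ∈ M) (h2 : G₁ ∈ M) (h3 : F₂ ∈ M)
    (h4 : G₂ ∈ M) (hf' : f' ∈ N) (h1' : F₁' ∈ N) (h2' : G₁' ∈ N) (h3' : F₂' ∈ N) (h4' : G₂' ∈ N) :
    PP L (f + f') (F₁ + F₁') (G₁ + G₁') (F₂ + F₂') (G₂ + G₂') =
      PP L f F₁ G₁ F₂ G₂ + PP L f' F₁' G₁' F₂' G₂' := by
  unfold PP P1 P2
  rw [qf_add L.L1 hP hM.X hN.X hM.Δ1 hN.Δ1 hM.E1 hN.E1 hM.S1 hN.S1 hf h1 h2 hf' h1' h2',
    qf_add L.L2 hP hM.X hN.X hM.Δ2 hN.Δ2 hM.E2 hN.E2 hM.S2 hN.S2 hf h3 h4 hf' h3' h4']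
  simp only [map_add, LinearMap.add_apply]
  rw [hP _ (hM.Δ1 _ hf) _ hf', hP.symm _ (hN.Δ1 _ hf') _ hf, hP _ (hM.Δ2 _ hf) _ hf',
    hP.symm _ (hN.Δ2 _ hf') _ hf, hP _ hf _ hf', hP.symm _ hf' _ hf]
  ring

end Orth

theorem PP_zero : PP L 0 0 0 0 0 = 0 := by
  simp [PP, P1, P2, Lad1.qf, Lad1.inn, Lad1.nsq]

/-- eigenfunctions of the symmetric operator `D` for different eigenvalues are orthogonal -/
theorem D_orth {u v : W} {a b : ℝ} (hu : L.D u = a • u) (hv : L.D v = b • v) (hab : a ≠ b) :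
    L.ip u v = 0 := by
  have h1 : L.ip (L.D u) v = L.ip u (L.D v) := by
    rw [Lad.D_apply, Lad.D_apply, map_add, LinearMap.add_apply, map_add, L.L1.Δ_symm, L.L2.Δ_symm]
  rw [hu, hv, map_smul, LinearMap.smul_apply, map_smul, smul_eq_mul, smul_eq_mul] at h1
  have h2 : (a - b) * L.ip u v = 0 := by linarith
  rcases mul_eq_zero.1 h2 with h3 | h3
  · exact absurd (sub_eq_zero.1 h3) hab
  · exact h3

/-- relation with the form of H662: `f = φ + u`, `D φ = 0`, `D u = 2 n u` -/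
theorem PP_eq {φ u : W} (hφ : L.D φ = 0) (hu : L.D u = (2 * dim L) • u) (hn : dim L ≠ 0)
    (F₁ G₁ F₂ G₂ : W) :
    PP L (φ + u) F₁ G₁ F₂ G₂ = L.L1.qf (φ + u) F₁ G₁ + L.L2.qf (φ + u) F₂ G₂
      - (dim L + 1) * L.ip (φ + u) (φ + u) + 2 * dim L * L.ip φ φ := by
  have h0 : L.ip φ u = 0 := by
    refine D_orth L (a := 0) (by rw [hφ, zero_smul]) hu ?_
    intro h
    exact hn (by linarith)
  have h1 : L.ip (L.L1.Δ (φ + u)) (φ + u) + L.ip (L.L2.Δ (φ + u)) (φ + u) =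
      2 * dim L * L.ip u u := by
    have e1 : L.D (φ + u) = (2 * dim L) • u := by rw [map_add, hφ, hu, zero_add]
    rw [← LinearMap.add_apply, ← map_add, ← Lad.D_apply, e1, map_smul,
      LinearMap.smul_apply, smul_eq_mul, map_add, L.symm u φ, h0, zero_add]
  have h2 : L.ip (φ + u) (φ + u) = L.ip φ φ + L.ip u u := by
    simp only [map_add, LinearMap.add_apply]
    rw [L.symm u φ, h0]; ring
  unfold PP P1 P2
  rw [h2]
  have h3 : dim L = L.e + L.d + 1 := rfl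
  linear_combination -h1 - (L.ip φ φ + L.ip u u) * h3

/-- **assembly**: positivity of the two parts gives positivity of the sum -/
theorem assemble {M N : Submodule ℝ W} (hP : Perp L M N) (hM : Stable L M) (hN : Stable L N)
    {g h : W} (hg : g ∈ M) (hh : h ∈ N)
    (h0 : g ≠ 0 → ∃ F₁ ∈ M, ∃ G₁ ∈ M, ∃ F₂ ∈ M, ∃ G₂ ∈ M, 0 < PP L g F₁ G₁ F₂ G₂)
    (h2 : h ≠ 0 → ∃ F₁ ∈ N, ∃ G₁ ∈ N, ∃ F₂ ∈ N, ∃ G₂ ∈ N, 0 < PP L h F₁ G₁ F₂ G₂)
    (hne : ¬ (g = 0 ∧ h = 0)) :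
    ∃ F₁ G₁ F₂ G₂ : W, 0 < PP L (g + h) F₁ G₁ F₂ G₂ := by
  have k0 : ∃ F₁ ∈ M, ∃ G₁ ∈ M, ∃ F₂ ∈ M, ∃ G₂ ∈ M, 0 ≤ PP L g F₁ G₁ F₂ G₂ ∧
      (g ≠ 0 → 0 < PP L g F₁ G₁ F₂ G₂) := by
    by_cases hg0 : g = 0
    · refine ⟨0, M.zero_mem, 0, M.zero_mem, 0, M.zero_mem, 0, M.zero_mem, ?_, ?_⟩
      · rw [hg0, PP_zero]
      · exact fun h => absurd hg0 h
    · obtain ⟨F₁, m1, G₁, m2, F₂, m3, G₂, m4, hp⟩ := h0 hg0
      exact ⟨F₁, m1, G₁, m2, F₂, m3, G₂, m4, hp.le, fun _ => hp⟩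
  have k2 : ∃ F₁ ∈ N, ∃ G₁ ∈ N, ∃ F₂ ∈ N, ∃ G₂ ∈ N, 0 ≤ PP L h F₁ G₁ F₂ G₂ ∧
      (h ≠ 0 → 0 < PP L h F₁ G₁ F₂ G₂) := by
    by_cases hh0 : h = 0
    · refine ⟨0, N.zero_mem, 0, N.zero_mem, 0, N.zero_mem, 0, N.zero_mem, ?_, ?_⟩
      · rw [hh0, PP_zero]
      · exact fun h => absurd hh0 h
    · obtain ⟨F₁, m1, G₁, m2, F₂, m3, G₂, m4, hp⟩ := h2 hh0
      exact ⟨F₁, m1, G₁, m2, F₂, m3, G₂, m4, hp.le, fun _ => hp⟩
  obtain ⟨F₁, m1, G₁, m2, F₂, m3, G₂, m4, hp, hp'⟩ := k0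
  obtain ⟨F₁', m1', G₁', m2', F₂', m3', G₂', m4', hq, hq'⟩ := k2
  refine ⟨F₁ + F₁', G₁ + G₁', F₂ + F₂', G₂ + G₂', ?_⟩
  rw [PP_add hP hM hN hg m1 m2 m3 m4 hh m1' m2' m3' m4']
  by_cases hg0 : g = 0
  · have : h ≠ 0 := fun h' => hne ⟨hg0, h'⟩
    linarith [hq' this]
  · linarith [hp' hg0]

/-- the conclusion of theorem PI for the function `h` and the local field `(F', G')` -/
def PIat (N : Submodule ℝ W) (h F' G' : W) : Prop :=
  ∀ ε > 0, ∃ F₁ ∈ N, ∃ G₁ ∈ N, ∃ F₂ ∈ N, ∃ G₂ ∈ N,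
    (1 / 2) * P1 L h F' G' - ε ≤ PP L h F₁ G₁ F₂ G₂

/-- the (2,2) part: one local `κ = 1` field and theorem PI -/
theorem pos_of_PI {N : Submodule ℝ W} {h F' G' : W} (hPI : PIat L N h F' G')
    (hc : 0 < P1 L h F' G') :
    ∃ F₁ ∈ N, ∃ G₁ ∈ N, ∃ F₂ ∈ N, ∃ G₂ ∈ N, 0 < PP L h F₁ G₁ F₂ G₂ := by
  obtain ⟨F₁, m1, G₁, m2, F₂, m3, G₂, m4, hp⟩ := hPI (P1 L h F' G' / 4) (by linarith)
  exact ⟨F₁, m1, G₁, m2, F₂, m3, G₂, m4, by linarith⟩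

end Vale.Agent.P207.Low
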