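import Vale.Agent.P207.Low.Sub

/-!
# P207, block LOW: sums over joint eigenvectors
-/

noncomputable section

namespace Vale.Agent.P207.Low

open Vale.Agent.P207.H662

section Spec

variable {E : Type*} [AddCommGroup E] [Module ℝ E]

/-- a symmetric operator of a finite dimensional euclidean space is diagonalizable -/
theorem exists_eigen_sum [FiniteDimensional ℝ E] (B : E →ₗ[ℝ] E →ₗ[ℝ] ℝ)
    (hs : ∀ u v, B u v = B v u) (hp : ∀ u, 0 ≤ B u u) (hd : ∀ u, B u u = 0 → u = 0)
    (T : E →ₗ[ℝ] E) (hT : ∀ u v, B (T u) v = B u (T v)) (h : E) :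
    ∃ (k : ℕ) (v : Fin k → E) (b : Fin k → ℝ), (∀ i, T (v i) = b i • v i) ∧
      (∀ i j, i ≠ j → B (v i) (v j) = 0) ∧ h = ∑ i, v i := by
  let core : InnerProductSpace.Core ℝ E :=
    { inner := fun u v => B u v
      conj_inner_symm := by
        intro u v
        simp only [conj_trivial]
        exact hs _ _
      re_inner_nonneg := by
        intro u
        simpa using hp u
      definite := fun u hu => hd u hu
      add_left := by
        intro u v w
        simp
      smul_left := by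
        intro u v r
        simp }
  let : NormedAddCommGroup E := core.toNormedAddCommGroup
  let : InnerProductSpace ℝ E := InnerProductSpace.ofCore core.toCore
  have hin : ∀ u v : E, inner ℝ u v = B u v := fun u v => rfl
  have hsym : T.IsSymmetric := by
    intro u v
    rw [hin, hin]
    exact hT u v
  let e := hsym.eigenvectorBasis (rfl : Module.finrank ℝ E = Module.finrank ℝ E)
  refine ⟨Module.finrank ℝ E, fun i => (B (e i) h) • e i,
    fun i => hsym.eigenvalues rfl i, ?_, ?_, ?_⟩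
  · intro i
    have h2 : T (e i) = (hsym.eigenvalues rfl i) • e i :=
      hsym.apply_eigenvectorBasis (rfl : Module.finrank ℝ E = Module.finrank ℝ E) i
    rw [map_smul, h2, smul_comm]
  · intro i j hij
    have h1 : B (e i) (e j) = 0 := by
      rw [← hin]
      exact e.orthonormal.2 hij
    simp [h1]
  · have h1 := e.sum_repr h
    rw [← h1]
    refine Finset.sum_congr rfl fun i _ => ?_
    rw [h1]
    congr 1
    rw [← hin, e.repr_apply_apply]

end Spec

variable {W : Type*} [AddCommGroup W] [Module ℝ W] {L : Lad W}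

/-- the orthogonal complement of a submodule -/
def perpMod (L : Lad W) (M : Submodule ℝ W) : Submodule ℝ W where
  carrier := {v | ∀ u ∈ M, L.ip u v = 0}
  add_mem' := by
    intro a b ha hb u hu
    rw [map_add, ha u hu, hb u hu, add_zero]
  zero_mem' := by
    intro u _
    rw [map_zero]
  smul_mem' := by
    intro c a ha u hu
    rw [map_smul, ha u hu, smul_zero]

theorem mem_perpMod {M : Submodule ℝ W} {v : W} : v ∈ perpMod L M ↔ ∀ u ∈ M, L.ip u v = 0 :=
  Iff.rfl

theorem perp_perpMod (M : Submodule ℝ W) : Perp L M (perpMod L M) := fun u hu _ hv => hv u hu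

theorem stable_perpMod {M : Submodule ℝ W} (hM : Stable L M) : Stable L (perpMod L M) := by
  refine Stable.of ?_ ?_ ?_
  · intro v hv u hu
    have h := L.skew u v
    rw [hv _ (hM.X u hu)] at h
    linarith
  · intro v hv u hu
    rw [← L.L1.Δ_symm]
    exact hv _ (hM.Δ1 u hu)
  · intro v hv u hu
    rw [← L.L2.Δ_symm]
    exact hv _ (hM.Δ2 u hu)

theorem P1_add {M N : Submodule ℝ W} (hP : Perp L M N) (hM : Stable L M) (hN : Stable L N)
    {f F G f' F' G' : W} (hf : f ∈ M) (hF : F ∈ M) (hG : G ∈ M) (hf' : f' ∈ N) (hF' : F' ∈ N)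
    (hG' : G' ∈ N) : P1 L (f + f') (F + F') (G + G') = P1 L f F G + P1 L f' F' G' := by
  unfold P1
  rw [qf_add L.L1 hP hM.X hN.X hM.Δ1 hN.Δ1 hM.E1 hN.E1 hM.S1 hN.S1 hf hF hG hf' hF' hG']
  simp only [map_add, LinearMap.add_apply]
  rw [hP _ (hM.Δ1 _ hf) _ hf', hP.symm _ (hN.Δ1 _ hf') _ hf, hP _ hf _ hf', hP.symm _ hf' _ hf]
  ring

theorem P1_zero : P1 L 0 0 0 = 0 := by
  simp [P1, Lad1.qf, Lad1.inn, Lad1.nsq]

/-- the quadratic form of a sum over pairwise orthogonal modules -/
theorem P1_sum {ι : Type*} (s : Finset ι) (N : ι → Submodule ℝ W)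
    (hP : ∀ i ∈ s, ∀ j ∈ s, i ≠ j → Perp L (N i) (N j)) (hN : ∀ i ∈ s, Stable L (N i))
    (f F G : ι → W) (hf : ∀ i ∈ s, f i ∈ N i) (hF : ∀ i ∈ s, F i ∈ N i)
    (hG : ∀ i ∈ s, G i ∈ N i) :
    P1 L (∑ i ∈ s, f i) (∑ i ∈ s, F i) (∑ i ∈ s, G i) = ∑ i ∈ s, P1 L (f i) (F i) (G i) := by
  classical
  induction s using Finset.induction_on with
  | empty => simp [P1_zero]
  | insert a s ha ih =>
    rw [Finset.sum_insert ha, Finset.sum_insert ha, Finset.sum_insert ha, Finset.sum_insert ha]
    have hmem : ∀ i ∈ s, ∀ u ∈ N i, u ∈ perpMod L (N a) := by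
      intro i hi u hu w hw
      exact hP a (Finset.mem_insert_self a s) i (Finset.mem_insert_of_mem hi)
        (fun h => ha (h ▸ hi)) w hw u hu
    rw [P1_add (perp_perpMod (N a)) (hN a (Finset.mem_insert_self a s))
      (stable_perpMod (hN a (Finset.mem_insert_self a s)))
      (hf a (Finset.mem_insert_self a s)) (hF a (Finset.mem_insert_self a s))
      (hG a (Finset.mem_insert_self a s))
      (Submodule.sum_mem _ fun i hi => hmem i hi _ (hf i (Finset.mem_insert_of_mem hi)))
      (Submodule.sum_mem _ fun i hi => hmem i hi _ (hF i (Finset.mem_insert_of_mem hi)))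
      (Submodule.sum_mem _ fun i hi => hmem i hi _ (hG i (Finset.mem_insert_of_mem hi)))]
    rw [ih (fun i hi j hj => hP i (Finset.mem_insert_of_mem hi) j (Finset.mem_insert_of_mem hj))
      (fun i hi => hN i (Finset.mem_insert_of_mem hi))
      (fun i hi => hf i (Finset.mem_insert_of_mem hi))
      (fun i hi => hF i (Finset.mem_insert_of_mem hi))
      (fun i hi => hG i (Finset.mem_insert_of_mem hi))]

/-- **positivity for all `h` from positivity for joint eigenvectors.**  `E` = the finite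
dimensional space of the functions `h`, `T` = the operator `B* B`. -/
theorem pos_of_eigen {E : Submodule ℝ W} [FiniteDimensional ℝ E]
    (hd : ∀ u ∈ E, L.ip u u = 0 → u = 0) (T : W →ₗ[ℝ] W) (hTE : ∀ u ∈ E, T u ∈ E)
    (hTs : ∀ u ∈ E, ∀ v ∈ E, L.ip (T u) v = L.ip u (T v))
    (hcross : ∀ u ∈ E, ∀ v ∈ E, ∀ b b' : ℝ, T u = b • u → T v = b' • v → L.ip u v = 0 →
      Perp L (Mod L {u}) (Mod L {v}))
    (hpos : ∀ u ∈ E, ∀ b : ℝ, T u = b • u → 0 < L.ip u u →
      ∃ F ∈ Mod L {u}, ∃ G ∈ Mod L {u}, 0 < P1 L u F G)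
    {h : W} (hh : h ∈ E) (hh0 : h ≠ 0) :
    ∃ F ∈ Mod L (E : Set W), ∃ G ∈ Mod L (E : Set W), 0 < P1 L h F G := by
  obtain ⟨k, v, b, h1, h2, h3⟩ := exists_eigen_sum (ipSub L.ip E) (fun u v => L.symm u v)
    (fun u => L.nonneg u) (fun u hu => Subtype.ext (hd u u.2 hu)) (T.restrict hTE)
    (fun u v => hTs u u.2 v v.2) ⟨h, hh⟩
  have h1' : ∀ i, T (v i : W) = b i • (v i : W) := fun i => congrArg Subtype.val (h1 i)
  have h3' : h = ∑ i, (v i : W) := by
    have := congrArg Subtype.val h3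
    simpa using this
  have key : ∀ i, ∃ F ∈ Mod L {(v i : W)}, ∃ G ∈ Mod L {(v i : W)},
      0 ≤ P1 L (v i : W) F G ∧ ((v i : W) ≠ 0 → 0 < P1 L (v i : W) F G) := by
    intro i
    by_cases hv : (v i : W) = 0
    · refine ⟨0, Submodule.zero_mem _, 0, Submodule.zero_mem _, ?_, fun h => absurd hv h⟩
      rw [hv, P1_zero]
    · have hpv : 0 < L.ip (v i : W) (v i : W) := by
        rcases (L.nonneg (v i : W)).lt_or_eq with h | h
        · exact h
        · exact absurd (hd _ (v i).2 h.symm) hv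
      obtain ⟨F, hF, G, hG, hFG⟩ := hpos _ (v i).2 (b i) (h1' i) hpv
      exact ⟨F, hF, G, hG, hFG.le, fun _ => hFG⟩
  choose F hF G hG hge hgt using key
  have hsum := P1_sum (L := L) Finset.univ (fun i => Mod L {(v i : W)})
    (fun i _ j _ hij => hcross _ (v i).2 _ (v j).2 (b i) (b j) (h1' i) (h1' j) (h2 i j hij))
    (fun i _ => stable_Mod L _) (fun i => (v i : W)) F G
    (fun i _ => subset_Mod L _ (Set.mem_singleton _)) (fun i _ => hF i) (fun i _ => hG i)
  have hle : ∀ i, Mod L {(v i : W)} ≤ Mod L (E : Set W) := fun i =>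
    Mod_mono (Set.singleton_subset_iff.2 (v i).2)
  refine ⟨∑ i, F i, Submodule.sum_mem _ fun i _ => hle i (hF i), ∑ i, G i,
    Submodule.sum_mem _ fun i _ => hle i (hG i), ?_⟩
  rw [h3', hsum]
  refine Finset.sum_pos' (fun i _ => hge i) ?_
  by_contra hcon
  push Not at hcon
  refine hh0 ?_
  rw [h3']
  refine Finset.sum_eq_zero fun i _ => ?_
  by_contra hv
  exact absurd (hgt i hv) (not_lt.2 (hcon i (Finset.mem_univ i)))

end Vale.Agent.P207.Low
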