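import Vale.Agent.P207.Low.Cas
import Vale.Agent.P207.H546.KFib

/-!
# P207, block LOW: the types of the three components of `k(v,v)/2`, and `Q_y(k) = n PP`
-/

open Finset

set_option linter.unusedSectionVars false

noncomputable section

namespace Vale.Agent.P207.Low

open Vale.Agent.P207.H442 Vale.Agent.P207.H662 Vale.Agent.P207 Vale.Agent.P207.H469
  Vale.Agent.P207.H546

variable {m : ℕ} {A : Type*} [CommRing A] [Algebra ℝ A] {C : FrCalc (m + 1) A}
  {I : A →ₗ[ℝ] ℝ} {d : ℝ} (h : Rk1 C d) (hI : C.IsInt I) (hp : ∀ f, 0 ≤ I (f * f))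

/-- the fibre Laplacian -/
theorem D_coe (f : h.sys.B) : (((h.lad hI hp).D f : h.sys.B) : A) = KF.Dt C (f : A) := by
  have e0 : (((h.lad hI hp).D f : h.sys.B) : A) =
      h.sys.Dl h.sys.Qc (f : A) + h.sys.Dl h.sys.P (f : A) := rfl
  rw [e0, Sys.Dl_apply, Sys.Dl_apply, ← neg_add, ← sum_add_distrib]
  unfold KF.Dt
  rw [Fin.sum_univ_succ, FrCalc.V_self, zero_add]
  congr 1
  refine sum_congr rfl fun i _ => ?_
  exact h.sys.split_PQ (fun j => C.V i.succ 0 (C.V j.succ 0 f)) i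

theorem PP_succ (i j : Fin m) : KF.PP C 2 i.succ j.succ = Pc C i j := by
  unfold KF.PP Pc
  have e1 : Kat.Kf C i.succ j.succ = Kc C i j := KF.Kf_eq _ _
  have e2 : (if i.succ = j.succ ∧ i.succ ≠ 0 then (1 : A) else 0) = kr i j 1 := by
    unfold kr
    simp only [Fin.succ_inj, ne_eq, succ_ne i, not_false_eq_true, and_true]
  rw [e1, e2]
  norm_num

/-- the leafwise Laplacian -/
theorem D2_coe (f : h.sys.B) : (((h.lad hI hp).L2.Δ f : h.sys.B) : A) =
    KF.Dq C (KF.PP C 2) (f : A) := by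
  have e0 : (((h.lad hI hp).L2.Δ f : h.sys.B) : A) = h.sys.Dl h.sys.P (f : A) := rfl
  rw [e0, Sys.Dl_apply]
  unfold KF.Dq
  congr 1
  rw [Fin.sum_univ_succ]
  have e1 : ∑ j, KF.PP C 2 0 j * C.V 0 0 (C.V j 0 f) = 0 :=
    sum_eq_zero fun j _ => by rw [FrCalc.V_self, mul_zero]
  rw [e1, zero_add]
  refine sum_congr rfl fun i _ => ?_
  rw [Fin.sum_univ_succ, FrCalc.V_self, map_zero, mul_zero, zero_add]
  refine sum_congr rfl fun j _ => ?_
  rw [PP_succ]
  rfl

theorem dim_lad : dim (h.lad hI hp) = m + 1 := by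
  change (m : ℝ) - d + d + 1 = m + 1
  ring

theorem lad_e : (h.lad hI hp).e = m - d := rfl

theorem lad_d : (h.lad hI hp).d = d := rfl

/-- the leafwise multiplicity -/
theorem NN_two : NN (m + 1) 2 (m + 3 * d) = d + 1 := by
  unfold NN
  push_cast
  ring

variable (hR : RankOne C 2 (m + 3 * d)) {k : Fin (m + 1) → Fin (m + 1) → A} (hk : C.T2 k)
  (hs : ∀ i j, k i j = k j i)

/-- the part of type `(0,0)` -/
def phiB : h.sys.B := h.fB (T2_k00 hk)

/-- the part of type `(2,0)` -/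
def twoB : h.sys.B := h.fB (T2_k20 hk (b := 2) (c₀ := m + 3 * d))

/-- the part of type `(2,2)` -/
def ttB : h.sys.B := h.fB (T2_k22 hk (b := 2) (c₀ := m + 3 * d))

theorem coe_phiB : (phiB h hk : A) = (1 / 2 : ℝ) • k00 (m + 1) k 0 0 := rfl

theorem coe_twoB : (twoB h hk : A) = (1 / 2 : ℝ) • k20 C 2 (m + 3 * d) k 0 0 := rfl

theorem coe_ttB : (ttB h hk : A) = (1 / 2 : ℝ) • k22 C 2 (m + 3 * d) k 0 0 := rfl

theorem fB_eq : h.fB hk = phiB h hk + twoB h hk + ttB h hk := by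
  apply Subtype.ext
  change (1 / 2 : ℝ) • k 0 0 = (1 / 2 : ℝ) • k00 (m + 1) k 0 0 +
    (1 / 2 : ℝ) • k20 C 2 (m + 3 * d) k 0 0 + (1 / 2 : ℝ) • k22 C 2 (m + 3 * d) k 0 0
  rw [← smul_add, ← smul_add]
  congr 1
  have := congrFun (congrFun (sum_types C 2 (m + 3 * d) k) 0) 0
  exact this.symm

/-- the part of type `(0,0)` is `tr k / 2n` -/
theorem coe_phiB' : (phiB h hk : A) = (1 / (2 * (m + 1)) : ℝ) • trk k := by
  rw [coe_phiB, k00_apply]
  simp only [Pi.smul_apply, dl_apply, if_true, tr2_apply]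
  rw [smul_smul]
  unfold trk
  congr 1
  push_cast
  field_simp

theorem typ_phi : Typ (h.lad hI hp) 0 0 (phiB h hk) where
  D2 := by
    apply Subtype.ext
    rw [D2_coe, coe_phiB, KF.Dq_smul]
    have : KF.Dq C (KF.PP C 2) (k00 (m + 1) k 0 0) = 0 := by
      unfold KF.Dq
      rw [sum_eq_zero, neg_zero]
      intro i _
      refine sum_eq_zero fun j _ => ?_
      rw [KF.V_k00 hk, map_zero, mul_zero]
    rw [this, smul_zero]
    simp
  D := by
    apply Subtype.ext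
    rw [D_coe, coe_phiB, KF.Dt_smul]
    have : KF.Dt C (k00 (m + 1) k 0 0) = 0 := by
      unfold KF.Dt
      rw [sum_eq_zero, neg_zero]
      intro i _
      rw [KF.V_k00 hk, map_zero]
    rw [this, smul_zero]
    simp

include hR hs

theorem typ_two : Typ (h.lad hI hp) 2 0 (twoB h hk) where
  D2 := by
    apply Subtype.ext
    rw [D2_coe, coe_twoB, KF.Dq_smul, KF.Dq_k20 hR hk hs, smul_zero]
    simp
  D := by
    apply Subtype.ext
    rw [D_coe, coe_twoB, KF.Dt_smul, KF.Dt_k20 hR hk hs, dim_lad]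
    change _ = (2 * (2 + ((m : ℝ) + 1) - 2)) • (twoB h hk : A)
    rw [coe_twoB, smul_comm]
    congr 1
    push_cast
    ring

theorem typ_tt : Typ (h.lad hI hp) 2 2 (ttB h hk) where
  D2 := by
    apply Subtype.ext
    rw [D2_coe, coe_ttB, KF.Dq_smul, KF.Dq_k22 hR hk hs, NN_two]
    change _ = (2 * (2 + d - 1)) • (ttB h hk : A)
    rw [coe_ttB, smul_comm]
    congr 1
    ring
  D := by
    apply Subtype.ext
    rw [D_coe, coe_ttB, KF.Dt_smul, KF.Dt_k22 hR hk hs, dim_lad]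
    change _ = (2 * (2 + ((m : ℝ) + 1) - 2)) • (ttB h hk : A)
    rw [coe_ttB, smul_comm]
    congr 1
    push_cast
    ring

theorem tt_ttB (hdiv : ∀ j, Kat.divf C (k22 C 2 (m + 3 * d) k) j = 0) :
    TT (h.lad hI hp) (ttB h hk) where
  typ := typ_tt h hI hp hR hk hs
  div := by
    apply Subtype.ext
    have e1 : (((h.lad hI hp).X (ttB h hk) : h.sys.B) : A) =
        (1 / 2 : ℝ) • C.H 0 (k22 C 2 (m + 3 * d) k 0 0) := by
      change C.H 0 ((1 / 2 : ℝ) • k22 C 2 (m + 3 * d) k 0 0) = _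
      rw [Derivation.map_smul]
    have e3 : ∑ i, k22 C 2 (m + 3 * d) k i i = 0 := hR.tr2_k22 k
    rw [D_coe, e1, KF.Dt_smul, KF.Dt_H_T2 (T2_k22 hk) (k22_symm hs), hdiv 0, e3, map_zero,
      smul_zero, smul_zero, sub_zero, sub_zero, dim_lad]
    change _ = (3 * (3 + ((m : ℝ) + 1) - 2)) • (((h.lad hI hp).X (ttB h hk) : h.sys.B) : A)
    rw [e1, smul_comm]
    congr 1
    push_cast
    ring

/-- **`Q_y(k) = n PP(f; F₁, G₁, F₂, G₂)`** -/
theorem Qf_PP (F1 G1 F2 G2 : h.sys.B) : Kat.Qf C I k (h.yF F1 G1 F2 G2) =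
    (m + 1 : ℝ) * PP (h.lad hI hp) (h.fB hk) F1 G1 F2 G2 := by
  have hm : (0 : ℝ) < m + 1 := by positivity
  have h1 : (h.lad hI hp).D (phiB h hk) = 0 := by
    rw [(typ_phi h hI hp hk).D]; simp
  have h2 : (h.lad hI hp).D (twoB h hk + ttB h hk) =
      (2 * dim (h.lad hI hp)) • (twoB h hk + ttB h hk) := by
    rw [map_add, (typ_two h hI hp hR hk hs).D, (typ_tt h hI hp hR hk hs).D, ← smul_add]
    congr 1
    ring
  have hd0 : dim (h.lad hI hp) ≠ 0 := by rw [dim_lad]; exact hm.ne'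
  have h3 := PP_eq (h.lad hI hp) h1 h2 hd0 F1 G1 F2 G2
  rw [← add_assoc, ← fB_eq h hk] at h3
  have h4 : (h.lad hI hp).ip (phiB h hk) (phiB h hk) =
      (1 / (2 * (m + 1))) ^ 2 * I (trk k * trk k) := by
    change I ((phiB h hk : A) * (phiB h hk : A)) = _
    rw [coe_phiB', smul_mul_smul_comm, map_smul, smul_eq_mul]
    ring
  rw [h.Qf_eq hI hp hk hs, h3, h4, dim_lad]
  field_simp
  ring

end Vale.Agent.P207.Low
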