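import Vale.Agent.P207.Low.Kfun
import Vale.Agent.P207.H158.Adm2

/-!
# P207, block LOW: functions on the unit tangent bundle which are invariant under a family of
rotations fixing `e₀`; the test fields are admissible and eigenfields of the Casimir operator
-/

open Finset

set_option linter.unusedSectionVars false

noncomputable section

namespace Vale.Agent.P207.Low

open Vale.Agent.P207.H442 Vale.Agent.P207.H662 Vale.Agent.P207 Vale.Agent.P207.H469
  Vale.Agent.P207.H546 Vale.Agent.P207.H158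

variable {m : ℕ} {A : Type*} [CommRing A] [Algebra ℝ A] {C : FrCalc (m + 1) A}
  {I : A →ₗ[ℝ] ℝ} {d : ℝ} (h : Rk1 C d) (hI : C.IsInt I) (hp : ∀ f, 0 ≤ I (f * f))
  {ι : Type*} (S : StabAct C ι)

/-- the invariant functions -/
def Ws : Submodule ℝ h.sys.B where
  carrier := {f | (f : A) ∈ S.toRotAct.scal}
  add_mem' := fun ha hb => S.toRotAct.scal.add_mem ha hb
  zero_mem' := S.toRotAct.scal.zero_mem
  smul_mem' := fun c _ ha => S.toRotAct.scal.smul_mem ha c

theorem mem_Ws {f : h.sys.B} : f ∈ Ws h S ↔ (f : A) ∈ S.toRotAct.scal := Iff.rfl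

theorem PP_eq_Pip (i j : Fin (m + 1)) : KF.PP C 2 i j =
    (1 / 3 : ℝ) • (Kat.Kf C i j - StabAct.Pip i j) := by
  unfold KF.PP
  have e1 : (if i = j ∧ i ≠ 0 then (1 : A) else 0) = StabAct.Pip i j := by
    unfold StabAct.Pip e0
    by_cases h1 : i = j
    · subst h1
      by_cases h2 : i = 0
      · simp [h2]
      · simp [h2]
    · by_cases h2 : i = 0
      · have h3 : ¬ j = 0 := fun h4 => h1 (h2.trans h4.symm)
        simp [h1, h3]
      · simp [h1, h2]
  rw [e1]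
  norm_num

theorem PP_matp : KF.PP C 2 ∈ S.matp := by
  have e : KF.PP C 2 = (1 / 3 : ℝ) • (Kat.Kf C - StabAct.Pip) := by
    funext i j
    rw [PP_eq_Pip]
    rfl
  rw [e]
  exact S.matp.smul_mem _ (S.matp.sub_mem StabAct.Kf_mem StabAct.Pip_mem)

theorem Dt_eq (f : A) : KF.Dt C f = - StabAct.vdiv C (StabAct.vgr C f) := by
  unfold KF.Dt StabAct.vdiv StabAct.vgr
  congr 1
  refine sum_congr rfl fun i _ => ?_
  rw [C.V_swap i 0, C.V_swap i 0 f, map_neg, neg_neg]

theorem Dt_mem {f : A} (hf : f ∈ S.toRotAct.scal) : KF.Dt C f ∈ S.toRotAct.scal := by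
  rw [Dt_eq]
  exact S.toRotAct.scal.neg_mem (StabAct.vdiv_mem (StabAct.vgr_mem hf).1)

theorem Dq_mem {f : A} (hf : f ∈ S.toRotAct.scal) :
    KF.Dq C (KF.PP C 2) f ∈ S.toRotAct.scal := by
  have h1 : (fun i j => C.V 0 i (StabAct.vgr C f j)) ∈ S.toRotAct.mat :=
    StabAct.V0_mem (StabAct.vgr_mem hf).1
  have h2 := RotAct.tr_mem (RotAct.mul_mem (PP_matp S).1 (RotAct.mat_swap h1))
  have e : KF.Dq C (KF.PP C 2) f =
      - ∑ i, ∑ j, KF.PP C 2 i j * C.V 0 i (StabAct.vgr C f j) := by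
    unfold KF.Dq StabAct.vgr
    congr 1
    refine sum_congr rfl fun i _ => sum_congr rfl fun j _ => ?_
    rw [C.V_swap i 0, C.V_swap j 0 f, map_neg, neg_neg]
  rw [e]
  exact S.toRotAct.scal.neg_mem h2

theorem stable_Ws : Stable (h.lad hI hp) (Ws h S) := by
  have hD : ∀ u ∈ Ws h S, (h.lad hI hp).D u ∈ Ws h S := by
    intro u hu
    rw [mem_Ws, D_coe]
    exact Dt_mem S hu
  have h2 : ∀ u ∈ Ws h S, (h.lad hI hp).L2.Δ u ∈ Ws h S := by
    intro u hu
    rw [mem_Ws, D2_coe]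
    exact Dq_mem S hu
  refine Stable.of ?_ ?_ h2
  · intro u hu
    exact StabAct.X_scal hu
  · intro u hu
    have e : (h.lad hI hp).L1.Δ u = (h.lad hI hp).D u - (h.lad hI hp).L2.Δ u := by
      rw [Lad.D_apply]; abel
    rw [e]
    exact (Ws h S).sub_mem (hD u hu) (h2 u hu)

/-- the vector `V F + H G` -/
def vh (C : FrCalc (m + 1) A) (F G : A) (i : Fin (m + 1)) : A := C.V i 0 F + C.H i G

theorem vh_mem {F G : A} (hF : F ∈ S.toRotAct.scal) (hG : G ∈ S.toRotAct.scal) :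
    vh C F G ∈ S.toRotAct.vec := by
  have e : vh C F G = - StabAct.vgr C F + fun i => C.H i G := by
    funext i
    unfold vh
    rw [Pi.add_apply, Pi.neg_apply, StabAct.vgr, C.V_swap i 0]
  rw [e]
  exact S.toRotAct.vec.add_mem (S.toRotAct.vec.neg_mem (StabAct.vgr_mem hF).1)
    (RotAct.grad_mem hG)

/-- the test field as a matrix applied to a vector -/
theorem yF_eq (F1 G1 F2 G2 : A) : h.yF F1 G1 F2 G2 =
    (fun i => ∑ j, (StabAct.Pip i j - KF.PP C 2 i j) * vh C F1 G1 j) +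
      fun i => ∑ j, KF.PP C 2 i j * vh C F2 G2 j := by
  have hPip : ∀ i j : Fin m, (StabAct.Pip i.succ j.succ : A) = kr i j 1 := by
    intro i j
    unfold StabAct.Pip e0 kr
    simp [succ_ne i, Fin.succ_inj]
  have hz : ∀ i : Fin (m + 1), (StabAct.Pip i 0 : A) = 0 := by
    intro i
    unfold StabAct.Pip e0
    by_cases h1 : i = 0 <;> simp [h1]
  have hz' : ∀ j : Fin (m + 1), (StabAct.Pip 0 j : A) = 0 := by
    intro j
    unfold StabAct.Pip e0
    by_cases h1 : j = 0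
    · simp [h1]
    · have h2 : ¬ (0 : Fin (m + 1)) = j := fun h3 => h1 h3.symm
      simp [h1, h2]
  funext i
  rw [Pi.add_apply]
  refine Fin.cases ?_ (fun i => ?_) i
  · rw [h.yF_zero]
    have e1 : ∀ j, (StabAct.Pip (0 : Fin (m + 1)) j - KF.PP C 2 0 j) * vh C F1 G1 j = 0 := by
      intro j; rw [hz', KF.PP_zero_left, sub_zero, zero_mul]
    have e2 : ∀ j, KF.PP C 2 0 j * vh C F2 G2 j = 0 := by
      intro j; rw [KF.PP_zero_left, zero_mul]
    rw [sum_congr rfl fun j _ => e1 j, sum_congr rfl fun j _ => e2 j, sum_const_zero, add_zero]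
  · rw [h.yF_succ, Fin.sum_univ_succ, Fin.sum_univ_succ, hz, KF.PP_zero_right, sub_zero, zero_mul,
      zero_mul, zero_add, zero_add]
    unfold Sys.fld
    simp only [hPip, PP_succ]
    rfl

/-- **the test fields are admissible** -/
theorem yF_mem {F1 G1 F2 G2 : h.sys.B} (h1 : F1 ∈ Ws h S) (h2 : G1 ∈ Ws h S) (h3 : F2 ∈ Ws h S)
    (h4 : G2 ∈ Ws h S) : h.yF F1 G1 F2 G2 ∈ S.adm := by
  rw [yF_eq]
  exact S.adm.add_mem
    (StabAct.matp_app' (S.matp.sub_mem StabAct.Pip_mem (PP_matp S)) (vh_mem S h1 h2))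
    (StabAct.matp_app' (PP_matp S) (vh_mem S h3 h4))

/-! ### eigenfunctions of the Casimir operator -/

theorem isPar_Pip (i j : Fin (m + 1)) : C.IsPar (StabAct.Pip i j) := by
  unfold StabAct.Pip e0
  refine FrCalc.IsPar.sub ?_ (FrCalc.IsPar.mul ?_ ?_)
  · split_ifs
    · exact FrCalc.isPar_one
    · exact FrCalc.isPar_zero
  · split_ifs
    · exact FrCalc.isPar_one
    · exact FrCalc.isPar_zero
  · split_ifs
    · exact FrCalc.isPar_one
    · exact FrCalc.isPar_zero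

theorem isPar_PP (hPar : C.Par) (i j : Fin (m + 1)) : C.IsPar (KF.PP C 2 i j) := by
  rw [PP_eq_Pip]
  exact FrCalc.IsPar.smul _ (FrCalc.IsPar.sub ((hPar.isPar i 0 0 j).neg) (isPar_Pip i j))

theorem cas_vh (hPar : C.Par) {lam : ℝ} {F G : A} (hF : C.cas F = (-lam) • F)
    (hG : C.cas G = (-lam) • G) (i : Fin (m + 1)) : C.cas (vh C F G i) = (-lam) • vh C F G i := by
  unfold vh
  rw [FrCalc.cas_add, ← FrCalc.V_cas, ← FrCalc.H_cas hPar, hF, hG, Derivation.map_smul,
    Derivation.map_smul, smul_add]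

/-- **the test fields are eigenfields** -/
theorem cas_yF {lam : ℝ} {F1 G1 F2 G2 : A} (h1 : C.cas F1 = (-lam) • F1)
    (h2 : C.cas G1 = (-lam) • G1) (h3 : C.cas F2 = (-lam) • F2) (h4 : C.cas G2 = (-lam) • G2)
    (i : Fin (m + 1)) : C.cas (h.yF F1 G1 F2 G2 i) = (-lam) • h.yF F1 G1 F2 G2 i := by
  rw [yF_eq, Pi.add_apply, FrCalc.cas_add, FrCalc.cas_sum, FrCalc.cas_sum, smul_add, smul_sum,
    smul_sum]
  congr 1
  · refine sum_congr rfl fun j _ => ?_
    rw [((isPar_Pip i j).sub (isPar_PP h.par i j)).cas_mul, cas_vh h.par h1 h2, mul_smul_comm]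
  · refine sum_congr rfl fun j _ => ?_
    rw [(isPar_PP h.par i j).cas_mul, cas_vh h.par h3 h4, mul_smul_comm]

end Vale.Agent.P207.Low
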