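import Vale.Agent.P207.Low.FlwSub
import Vale.Agent.P207.Low.Stab

/-!
# P207, block LOW: positivity of `Q_y(k)` on one eigenspace of the Casimir operator

`Cert.{u} d e Ex`: the positivity certificate for the ladder algebras with multiplicities `d`, `e`
(`Ex L lam`: additional inequalities for the algebra which are known for geometric reasons).
-/

open Finset

set_option linter.unusedSectionVars false

noncomputable section

universe u

namespace Vale.Agent.P207.Low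

open Vale.Agent.P207.H662 Vale.Agent.P207.H391 Vale.Agent.P207.H442 Vale.Agent.P207
  Vale.Agent.P207.H469 Vale.Agent.P207.H546 Vale.Agent.P207.H158

section Lad

variable {W : Type u} [AddCommGroup W] [Module ℝ W]

/-- The positivity on one eigenspace: for `φ` of type `(0,0)`, `w` of type `(2,0)` and
`t` of type `(2,2)`, divergence free, there are test functions with a positive form. -/
def CertAt (L : Lad W) (lam : ℝ) (φ w t : W) : Prop :=
  Typ L 0 0 φ → Typ L 2 0 w → TT L t → (φ ≠ 0 → 0 < lam) →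
    ¬ (φ + w = 0 ∧ t = 0) → ∃ F₁ G₁ F₂ G₂ : W, 0 < PP L (φ + w + t) F₁ G₁ F₂ G₂

/-- The positivity on one eigenspace, for all functions. -/
def Cert (L : Lad W) (lam : ℝ) : Prop := ∀ φ w t : W, CertAt L lam φ w t

theorem typ_orth (L : Lad W) {φ u : W} {a b : ℝ} (hφ : L.D φ = a • φ) (hu : L.D u = b • u)
    (hab : a ≠ b) : L.ip φ u = 0 := D_orth L hφ hu hab

end Lad

section Fr

variable {m : ℕ} {A : Type u} [CommRing A] [Algebra ℝ A] {C : FrCalc (m + 1) A}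
  {I : A →ₗ[ℝ] ℝ} {d : ℝ} (h : Rk1 C d) (hI : C.IsInt I) (hp : ∀ f, 0 ≤ I (f * f))
  {ι : Type*} (S : StabAct C ι)

/-- the functions on one eigenspace -/
def WE (lam : ℝ) : Submodule ℝ h.sys.B := Ws h S ⊓ eigLam (h.lad hI hp) lam

theorem stable_WE (lam : ℝ) : Stable (h.lad hI hp) (WE h hI hp S lam) :=
  (stable_Ws h hI hp S).inf (stable_eigLam _ lam)

/-- the ladder algebra of one eigenspace -/
def ladE (lam : ℝ) : Lad (WE h hI hp S lam) := sub (h.lad hI hp) _ (stable_WE h hI hp S lam)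

theorem ladE_Lam (lam : ℝ) (f : WE h hI hp S lam) : (ladE h hI hp S lam).Lam f = lam • f :=
  Subtype.ext f.2.2

theorem ladE_def (hdef : ∀ f, I (f * f) = 0 → f = 0) (lam : ℝ) (f : WE h hI hp S lam)
    (hf : (ladE h hI hp S lam).ip f f = 0) : f = 0 :=
  Subtype.ext (Subtype.ext (hdef _ hf))

variable {k : Fin (m + 1) → Fin (m + 1) → A}

theorem fB_mem (hk : C.T2 k) {lam : ℝ} (hS : k 0 0 ∈ S.toRotAct.scal)
    (hcas : C.cas (k 0 0) = (-lam) • k 0 0) : h.fB hk ∈ WE h hI hp S lam := by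
  refine ⟨S.toRotAct.scal.smul_mem hS _, ?_⟩
  rw [SetLike.mem_coe, mem_eigLam]
  apply Subtype.ext
  rw [lad_Lam]
  change - C.cas ((1 / 2 : ℝ) • k 0 0) = lam • ((1 / 2 : ℝ) • k 0 0)
  rw [FrCalc.cas_smul, hcas]
  module

/-- a symmetric tensor with `k(v,v) = 0` vanishes -/
theorem k_eq_zero (hk : C.T2 k) (hs : ∀ i j, k i j = k j i) (h0 : k 0 0 = 0) : k = 0 := by
  have h1 : ∀ i : Fin m, k 0 i.succ = 0 := by
    intro i
    rw [← v_fk hk hs i]
    unfold fk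
    rw [h0, smul_zero, map_zero]
  have h2 : ∀ i j : Fin m, k j.succ i.succ = 0 := by
    intro i j
    have h3 := v_k0 hk i j
    rw [h1, map_zero, h0, kr_zero, sub_zero] at h3
    exact h3.symm
  funext i j
  refine Fin.cases ?_ (fun i => ?_) i
  · refine Fin.cases ?_ (fun j => ?_) j
    · exact h0
    · exact h1 j
  · refine Fin.cases ?_ (fun j => ?_) j
    · rw [hs]; exact h1 i
    · exact h2 j i

theorem parts_mem (hR : RankOne C 2 (m + 3 * d)) (hd : 0 ≤ d) (hk : C.T2 k)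
    (hs : ∀ i j, k i j = k j i) {N : Submodule ℝ h.sys.B} (hN : Stable (h.lad hI hp) N)
    (hf : h.fB hk ∈ N) : phiB h hk ∈ N ∧ twoB h hk ∈ N ∧ ttB h hk ∈ N := by
  have hm : (0 : ℝ) < m + 1 := by positivity
  have e1 := (typ_phi h hI hp hk).D
  have e2 := (typ_two h hI hp hR hk hs).D
  have e3 := (typ_tt h hI hp hR hk hs).D
  have g1 : (h.lad hI hp).L2.Δ (phiB h hk) = (0 * (0 + d - 1)) • phiB h hk :=
    (typ_phi h hI hp hk).D2
  have g2 : (h.lad hI hp).L2.Δ (twoB h hk) = (0 * (0 + d - 1)) • twoB h hk :=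
    (typ_two h hI hp hR hk hs).D2
  have g3 : (h.lad hI hp).L2.Δ (ttB h hk) = (2 * (2 + d - 1)) • ttB h hk :=
    (typ_tt h hI hp hR hk hs).D2
  rw [dim_lad] at e1 e2 e3
  have hDN : (h.lad hI hp).D (h.fB hk) ∈ N := by
    rw [Lad.D_apply]
    exact N.add_mem (hN.Δ1 _ hf) (hN.Δ2 _ hf)
  have ht : ttB h hk ∈ N := by
    have e4 : (h.lad hI hp).L2.Δ (h.fB hk) = (2 * (d + 1)) • ttB h hk := by
      rw [fB_eq h hk, map_add, map_add, g1, g2, g3]
      module
    have e5 : ttB h hk = (2 * (d + 1))⁻¹ • (h.lad hI hp).L2.Δ (h.fB hk) := by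
      rw [e4, smul_smul, inv_mul_cancel₀ (by positivity), one_smul]
    rw [e5]
    exact N.smul_mem _ (hN.Δ2 _ hf)
  have hφ : phiB h hk ∈ N := by
    have e4 : (h.lad hI hp).D (h.fB hk) = (2 * ((m : ℝ) + 1)) • (h.fB hk - phiB h hk) := by
      rw [fB_eq h hk, map_add, map_add, e1, e2, e3]
      module
    have e5 : phiB h hk = h.fB hk - (2 * ((m : ℝ) + 1))⁻¹ • (h.lad hI hp).D (h.fB hk) := by
      rw [e4, smul_smul, inv_mul_cancel₀ (by positivity), one_smul]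
      abel
    rw [e5]
    exact N.sub_mem hf (N.smul_mem _ hDN)
  refine ⟨hφ, ?_, ht⟩
  have e6 : twoB h hk = h.fB hk - phiB h hk - ttB h hk := by
    rw [fB_eq h hk]; abel
  rw [e6]
  exact N.sub_mem (N.sub_mem hf hφ) ht

/-- a non constant function on the manifold has a positive eigenvalue -/
theorem lam_pos (hI : C.IsInt I) (hp : ∀ f, 0 ≤ I (f * f)) (hdef : ∀ f, I (f * f) = 0 → f = 0)
    {φ : A} {lam : ℝ} (hc : (∀ i, C.H i φ = 0) → φ = 0)
    (hV : ∀ a b, C.V a b φ = 0) (hcas : C.cas φ = (-lam) • φ)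
    (hne : φ ≠ 0) : 0 < lam := by
  have h1 : C.cas φ = C.lap φ := by
    unfold FrCalc.cas FrCalc.curv
    simp only [hV, map_zero, mul_zero, sum_const_zero, smul_zero, sub_zero]
  have h2 : I (φ * C.lap φ) = - ∑ i, I (C.H i φ * C.H i φ) := by
    rw [hI.lap]
  rw [← h1, hcas, mul_smul_comm, map_smul, smul_eq_mul] at h2
  have h3 : 0 < I (φ * φ) := by
    rcases (hp φ).lt_or_eq with h4 | h4
    · exact h4
    · exact absurd (hdef _ h4.symm) hne
  by_contra hcon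
  push Not at hcon
  have h5 : ∑ i, I (C.H i φ * C.H i φ) ≤ 0 := by nlinarith
  have h6 : ∀ i, C.H i φ = 0 := by
    intro i
    have h7 : ∑ i, I (C.H i φ * C.H i φ) = 0 :=
      le_antisymm h5 (sum_nonneg fun i _ => hp _)
    exact hdef _ ((sum_eq_zero_iff_of_nonneg fun i _ => hp _).1 h7 i (mem_univ i))
  exact hne (hc h6)

/-- **LOW**: positivity on one eigenspace of the Casimir operator (`hc`: if the trace is constant,
it vanishes) -/
theorem low_of_cert (hdef : ∀ f, I (f * f) = 0 → f = 0)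
    (hc : (∀ i, C.H i (trk k) = 0) → trk k = 0)
    (hR : RankOne C 2 (m + 3 * d)) (hd : 0 ≤ d) {lam : ℝ}
    (hk : C.T2 k) (hs : ∀ i j, k i j = k j i)
    (hcert : ∀ (hφ : phiB h hk ∈ WE h hI hp S lam) (hw : twoB h hk ∈ WE h hI hp S lam)
      (ht : ttB h hk ∈ WE h hI hp S lam),
      CertAt (ladE h hI hp S lam) lam ⟨phiB h hk, hφ⟩ ⟨twoB h hk, hw⟩ ⟨ttB h hk, ht⟩)
    (hS : k 0 0 ∈ S.toRotAct.scal)
    (hcas : ∀ i j, C.cas (k i j) = (-lam) • k i j)
    (hdiv : ∀ j, Kat.divf C (k22 C 2 (m + 3 * d) k) j = 0)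
    (hne : k ≠ 0) :
    ∃ y ∈ S.adm, (∀ i, C.cas (y i) = (-lam) • y i) ∧ 0 < Kat.Qf C I k y := by
  have hf : h.fB hk ∈ WE h hI hp S lam := fB_mem h hI hp S hk hS (hcas 0 0)
  obtain ⟨hφ, hw, ht⟩ := parts_mem h hI hp hR hd hk hs (stable_WE h hI hp S lam) hf
  set L := ladE h hI hp S lam with hLdef
  have t1 : Typ L 0 0 ⟨phiB h hk, hφ⟩ := sub_typ.2 (typ_phi h hI hp hk)
  have t2 : Typ L 2 0 ⟨twoB h hk, hw⟩ := sub_typ.2 (typ_two h hI hp hR hk hs)
  have t3 : TT L ⟨ttB h hk, ht⟩ := sub_TT.2 (tt_ttB h hI hp hR hk hs hdiv)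
  have hlam : (⟨phiB h hk, hφ⟩ : WE h hI hp S lam) ≠ 0 → 0 < lam := by
    intro hne0
    have e1 : C.cas (trk k) = (-lam) • trk k := by
      unfold trk
      rw [FrCalc.cas_sum, smul_sum]
      exact sum_congr rfl fun i _ => hcas i i
    refine lam_pos hI hp hdef hc (T0_tr hk) e1 fun h0 => hne0 ?_
    apply Subtype.ext
    apply Subtype.ext
    rw [coe_phiB', h0, smul_zero]
    rfl
  have hnz : ¬ ((⟨phiB h hk, hφ⟩ : WE h hI hp S lam) + ⟨twoB h hk, hw⟩ = 0 ∧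
      (⟨ttB h hk, ht⟩ : WE h hI hp S lam) = 0) := by
    rintro ⟨h1, h2⟩
    have h3 : phiB h hk + twoB h hk = 0 := congrArg Subtype.val h1
    have h4 : ttB h hk = 0 := congrArg Subtype.val h2
    have h5 : h.fB hk = 0 := by rw [fB_eq, h3, h4, add_zero]
    have h6 : (1 / 2 : ℝ) • k 0 0 = 0 := congrArg Subtype.val h5
    refine hne (k_eq_zero hk hs ?_)
    have h7 := congrArg (fun x => (2 : ℝ) • x) h6
    simpa [smul_smul] using h7
  obtain ⟨F₁, G₁, F₂, G₂, hpos⟩ := hcert hφ hw ht t1 t2 t3 hlam hnz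
  have hcasF : ∀ F : WE h hI hp S lam, C.cas ((F : h.sys.B) : A) = (-lam) • ((F : h.sys.B) : A) := by
    intro F
    have h1 := congrArg Subtype.val (show (h.lad hI hp).Lam (F : h.sys.B) = lam • (F : h.sys.B)
      from F.2.2)
    rw [lad_Lam] at h1
    have h2 : C.cas ((F : h.sys.B) : A) = - (lam • ((F : h.sys.B) : A)) := by
      rw [← neg_eq_iff_eq_neg]
      exact h1
    rw [h2, neg_smul]
  refine ⟨h.yF (F₁ : h.sys.B) (G₁ : h.sys.B) (F₂ : h.sys.B) (G₂ : h.sys.B),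
    yF_mem h S F₁.2.1 G₁.2.1 F₂.2.1 G₂.2.1,
    cas_yF h (hcasF F₁) (hcasF G₁) (hcasF F₂) (hcasF G₂), ?_⟩
  rw [Qf_PP h hI hp hR hk hs]
  have h8 : PP L ((⟨phiB h hk, hφ⟩ : WE h hI hp S lam) + ⟨twoB h hk, hw⟩ + ⟨ttB h hk, ht⟩)
      F₁ G₁ F₂ G₂ = PP (h.lad hI hp) (h.fB hk) F₁ G₁ F₂ G₂ := by
    rw [fB_eq h hk]
    rfl
  rw [h8] at hpos
  positivity

end Fr

end Vale.Agent.P207.Low
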