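import Vale.Agent.P207.H662.QF3
import Vale.Agent.P207.Low.Eig

/-!
# P207, block LOW: the operator `Λ` of the ladder algebra is minus the Casimir operator
-/

open Finset

set_option linter.unusedSectionVars false

noncomputable section

namespace Vale.Agent.P207.Low

open Vale.Agent.P207.H442 Vale.Agent.P207.H662 Vale.Agent.P207

variable {m : ℕ} {A : Type*} [CommRing A] [Algebra ℝ A] {C : FrCalc (m + 1) A}
  {I : A →ₗ[ℝ] ℝ} {d : ℝ} (h : Rk1 C d)

theorem sum_kr_mul (i : Fin m) (F : Fin m → A) : ∑ j, kr i j (1 : A) * F j = F i := by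
  have : ∀ j, kr i j (1 : A) * F j = kr i j (F j) := fun j => by rw [kr_mul, one_mul]
  rw [sum_congr rfl fun j _ => this j, sum_kr_left]

/-- the curvature part on functions of the unit tangent bundle -/
theorem curv_B {f : A} (hf : f ∈ h.sys.B) :
    C.curv f = (4 : ℝ) • ∑ i : Fin m, ∑ j : Fin m,
      Kc C i j * C.V i.succ 0 (C.V j.succ 0 f) := by
  have hr : ∀ i j : Fin m, C.V i.succ j.succ f = 0 := hf
  -- the inner sums
  have e1 : ∀ i j : Fin (m + 1), ∑ k, ∑ l, C.R i j k l * C.V i j (C.V k l f) =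
      (2 : ℝ) • ∑ l : Fin m, C.R i j l.succ 0 * C.V i j (C.V l.succ 0 f) := by
    intro i j
    rw [Fin.sum_univ_succ, Fin.sum_univ_succ]
    have a1 : ∀ k : Fin m, ∑ l, C.R i j k.succ l * C.V i j (C.V k.succ l f) =
        C.R i j k.succ 0 * C.V i j (C.V k.succ 0 f) := by
      intro k
      rw [Fin.sum_univ_succ]
      have : ∀ l : Fin m, C.R i j k.succ l.succ * C.V i j (C.V k.succ l.succ f) = 0 := by
        intro l; rw [hr, map_zero, mul_zero]
      rw [sum_eq_zero fun l _ => this l, add_zero]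
    have a2 : ∀ l : Fin m, C.R i j 0 l.succ * C.V i j (C.V 0 l.succ f) =
        C.R i j l.succ 0 * C.V i j (C.V l.succ 0 f) := by
      intro l
      rw [C.R_skew i j 0 l.succ, C.V_swap 0 l.succ, map_neg]; ring
    rw [FrCalc.V_self, map_zero, mul_zero, zero_add, sum_congr rfl fun k _ => a1 k,
      sum_congr rfl fun l _ => a2 l, two_smul]
  -- outer sums
  have e2 : ∀ i : Fin m, ∑ j, ∑ k, ∑ l, C.R i.succ j k l * C.V i.succ j (C.V k l f) =
      (2 : ℝ) • ∑ l : Fin m, C.R i.succ 0 l.succ 0 * C.V i.succ 0 (C.V l.succ 0 f) +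
      (2 : ℝ) • ∑ j : Fin m, ∑ l : Fin m, C.R i.succ j.succ l.succ 0 *
        C.V i.succ j.succ (C.V l.succ 0 f) := by
    intro i
    rw [Fin.sum_univ_succ, e1, smul_sum (s := (univ : Finset (Fin m)))
      (f := fun j => ∑ l : Fin m, C.R i.succ j.succ l.succ 0 *
        C.V i.succ j.succ (C.V l.succ 0 f))]
    congr 1
    exact sum_congr rfl fun j _ => e1 _ _
  have e3 : ∑ j, ∑ k, ∑ l, C.R 0 j k l * C.V 0 j (C.V k l f) =
      (2 : ℝ) • ∑ i : Fin m, ∑ l : Fin m, C.R i.succ 0 l.succ 0 *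
        C.V i.succ 0 (C.V l.succ 0 f) := by
    have a1 : ∑ l : Fin m, C.R 0 0 l.succ 0 * C.V 0 0 (C.V l.succ 0 f) = 0 :=
      sum_eq_zero fun l _ => by rw [FrCalc.V_self, mul_zero]
    rw [Fin.sum_univ_succ, e1, a1, smul_zero, zero_add, smul_sum]
    refine sum_congr rfl fun j _ => ?_
    rw [e1]
    congr 1
    refine sum_congr rfl fun l _ => ?_
    rw [C.R_anti 0 j.succ, C.V_swap 0 j.succ]; ring
  -- the Ricci part vanishes
  have e4 : ∑ i : Fin m, ∑ j : Fin m, ∑ l : Fin m, C.R i.succ j.succ l.succ 0 *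
        C.V i.succ j.succ (C.V l.succ 0 f) = 0 := by
    have b1 : ∀ i j l : Fin m, C.R i.succ j.succ l.succ 0 *
        C.V i.succ j.succ (C.V l.succ 0 f) =
        C.R i.succ j.succ l.succ 0 * kr j l (C.V i.succ 0 f) -
        C.R i.succ j.succ l.succ 0 * kr i l (C.V j.succ 0 f) := by
      intro i j l
      have := h.sys.rv i j l f
      have c1 : C.V i.succ j.succ (C.V l.succ 0 f) = C.V l.succ 0 (C.V i.succ j.succ f) +
        kr j l (C.V i.succ 0 f) - kr i l (C.V j.succ 0 f) := this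
      rw [c1, hr, map_zero]; ring
    have b2 : ∀ i : Fin m, ∑ j : Fin m, C.R i.succ j.succ j.succ 0 = 0 := by
      intro i
      have h1 := h.ein i.succ 0
      have e0 : C.Ric i.succ 0 = C.R i.succ 0 0 0 + ∑ k : Fin m, C.R i.succ k.succ k.succ 0 := by
        rw [FrCalc.Ric, Fin.sum_univ_succ]
      have h3 : kr i.succ (0 : Fin (m + 1)) (algebraMap ℝ A (m + 3 * d)) = 0 := by
        unfold kr; rw [if_neg (succ_ne i)]
      rw [e0, h3, neg_zero, R_self', zero_add] at h1
      exact h1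
    have b3 : ∑ i : Fin m, ∑ j : Fin m, ∑ l : Fin m,
        C.R i.succ j.succ l.succ 0 * kr j l (C.V i.succ 0 f) = 0 := by
      refine sum_eq_zero fun i _ => ?_
      have : ∀ j : Fin m, ∑ l : Fin m, C.R i.succ j.succ l.succ 0 * kr j l (C.V i.succ 0 f) =
          C.R i.succ j.succ j.succ 0 * C.V i.succ 0 f := by
        intro j
        exact sum_mul_kr_left j (fun l => C.R i.succ j.succ l.succ 0) (fun _ => C.V i.succ 0 f)
      rw [sum_congr rfl fun j _ => this j, ← sum_mul, b2, zero_mul]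
    have b4 : ∑ i : Fin m, ∑ j : Fin m, ∑ l : Fin m,
        C.R i.succ j.succ l.succ 0 * kr i l (C.V j.succ 0 f) = 0 := by
      rw [sum_comm]
      refine sum_eq_zero fun j _ => ?_
      have : ∀ i : Fin m, ∑ l : Fin m, C.R i.succ j.succ l.succ 0 * kr i l (C.V j.succ 0 f) =
          - (C.R j.succ i.succ i.succ 0 * C.V j.succ 0 f) := by
        intro i
        rw [sum_mul_kr_left i (fun l => C.R i.succ j.succ l.succ 0) (fun _ => C.V j.succ 0 f),
          C.R_anti i.succ j.succ]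
        ring
      rw [sum_congr rfl fun i _ => this i, sum_neg_distrib, ← sum_mul, b2, zero_mul, neg_zero]
    simp only [b1, sum_sub_distrib]
    rw [b3, b4, sub_zero]
  have e5 : ∀ i l : Fin m, C.R i.succ 0 l.succ 0 = Kc C i l := by
    intro i l
    unfold Kc
    rw [C.R_anti, C.R_skew]; ring
  unfold FrCalc.curv
  rw [Fin.sum_univ_succ, e3, sum_congr rfl fun i _ => e2 i, sum_add_distrib, ← smul_sum,
    ← smul_sum, e4, smul_zero, add_zero, ← add_smul]
  simp only [e5]
  norm_num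

variable (hI : C.IsInt I) (hp : ∀ f, 0 ≤ I (f * f))

/-- `Λ = - cas` -/
theorem lad_Lam (f : h.sys.B) : (((h.lad hI hp).Lam f : h.sys.B) : A) = - C.cas (f : A) := by
  have e0 : (((h.lad hI hp).Lam f : h.sys.B) : A) =
      - h.sys.X (h.sys.X f) + (h.sys.Sl h.sys.Qc f - (1 : ℝ) • h.sys.Dl h.sys.Qc f) +
      (h.sys.Sl h.sys.P f - (4 : ℝ) • h.sys.Dl h.sys.P f) := rfl
  have eS : h.sys.Sl h.sys.Qc (f : A) + h.sys.Sl h.sys.P (f : A) =
      - ∑ i : Fin m, C.H i.succ (C.H i.succ f) := by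
    rw [Sys.Sl_apply, Sys.Sl_apply, ← neg_add, ← sum_add_distrib]
    congr 1
    refine sum_congr rfl fun i _ => ?_
    exact h.sys.split_PQ (fun j => C.H i.succ (C.H j.succ f)) i
  have eD : (1 : ℝ) • h.sys.Dl h.sys.Qc (f : A) + (4 : ℝ) • h.sys.Dl h.sys.P (f : A) =
      - ∑ i : Fin m, ∑ j : Fin m, Kc C i j * C.V i.succ 0 (C.V j.succ 0 f) := by
    rw [Sys.Dl_apply, Sys.Dl_apply, smul_neg, smul_neg, ← neg_add, one_smul, smul_sum,
      ← sum_add_distrib]
    congr 1
    refine sum_congr rfl fun i _ => ?_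
    rw [smul_sum, ← sum_add_distrib]
    refine sum_congr rfl fun j _ => ?_
    have h1 : (4 : ℝ) • (h.sys.P i j * h.sys.v i (h.sys.v j f)) =
        h.sys.P i j * h.sys.v i (h.sys.v j f) + 3 * (h.sys.P i j * h.sys.v i (h.sys.v j f)) := by
      rw [Algebra.smul_def, map_ofNat]; ring
    rw [h1, Sys.Qc_apply, K_eq]
    change (kr i j 1 - Pc C i j) * C.V i.succ 0 (C.V j.succ 0 f) +
      (Pc C i j * C.V i.succ 0 (C.V j.succ 0 f) + 3 * (Pc C i j * C.V i.succ 0 (C.V j.succ 0 f))) =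
      _
    ring
  have eL : C.lap (f : A) = h.sys.X (h.sys.X f) + ∑ i : Fin m, C.H i.succ (C.H i.succ f) := by
    unfold FrCalc.lap
    rw [Fin.sum_univ_succ]
    rfl
  have eC : C.cas (f : A) = C.lap f - ∑ i : Fin m, ∑ j : Fin m,
      Kc C i j * C.V i.succ 0 (C.V j.succ 0 f) := by
    unfold FrCalc.cas
    rw [curv_B h f.2, smul_smul]
    norm_num
  rw [e0, eC, eL]
  linear_combination eS - eD

end Vale.Agent.P207.Low
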