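import Vale.Agent.P207.Low.Main
import Vale.Agent.P207.H639.Gram7
import Vale.Agent.P207.H639.Gram8
import Vale.Agent.P207.H468.X1
import Vale.Agent.P207.H316.CrossF

/-!
# P207, block LOW: the certificate on one eigenspace, for the ladder algebras of the quaternionic
hyperbolic spaces and of the Cayley plane
-/

set_option linter.unusedSectionVars false

noncomputable section

universe u

namespace Vale.Agent.P207.Low

open Vale.Agent.P207.H662 Vale.Agent.P207.H391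

variable {W : Type u} [AddCommGroup W] [Module ℝ W] {L : Lad W} {lam : ℝ}

theorem ip_pos_of_ne (hdef : ∀ f, L.ip f f = 0 → f = 0) {u : W} (hu : u ≠ 0) : 0 < L.ip u u := by
  rcases (L.nonneg u).lt_or_eq with h | h
  · exact h
  · exact absurd (hdef u h.symm) hu

/-- there is an eigenvector of `B* B` if there is a function of type `(2,2)` at all -/
theorem exists_joint (hd : 2 ≤ L.d) (he : 0 ≤ L.e) (hdef : ∀ f, L.ip f f = 0 → f = 0)
    (hfd : FiniteDimensional ℝ (TTs L)) {t : W} (ht : TT L t) (ht0 : t ≠ 0) :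
    ∃ (u : W) (b : ℝ), TT L u ∧ H468.BB L hd he u = b • u ∧ 0 < L.ip u u := by
  have hTE : ∀ u ∈ TTs L, H468.BB L hd he u ∈ TTs L := fun u hu => H468.BB_TT hd he hu
  obtain ⟨k, v, b, h1, -, h3⟩ := exists_eigen_sum (ipSub L.ip (TTs L)) (fun u v => L.symm u v)
    (fun u => L.nonneg u) (fun u hu => Subtype.ext (hdef u hu))
    ((H468.BB L hd he).restrict hTE) (fun u v => H468.BB_symm hd he u.2 v.2) ⟨t, ht⟩
  have h4 : ∃ i, v i ≠ 0 := by
    by_contra hcon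
    push Not at hcon
    have h5 : (⟨t, ht⟩ : TTs L) = 0 := by
      rw [h3]
      exact Finset.sum_eq_zero fun i _ => hcon i
    exact ht0 (congrArg Subtype.val h5)
  obtain ⟨i, hi⟩ := h4
  refine ⟨v i, b i, (v i).2, congrArg Subtype.val (h1 i), ip_pos_of_ne hdef fun h6 => hi ?_⟩
  exact Subtype.ext h6

/-- the part of type `(2,2)`: from joint eigenvectors to all functions -/
theorem s2_sum (hd3 : 2 < L.d) (he : 0 ≤ L.e) (hL : ∀ f, L.Lam f = lam • f)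
    (hdef : ∀ f, L.ip f f = 0 → f = 0) (hfd : FiniteDimensional ℝ (TTs L))
    (hpos : ∀ u, TT L u → ∀ b : ℝ, H468.BB L hd3.le he u = b • u → 0 < L.ip u u →
      ∃ F ∈ Mod L {u}, ∃ G ∈ Mod L {u}, 0 < P1 L u F G) {t : W} (ht : TT L t) (ht0 : t ≠ 0) :
    ∃ F ∈ Mod L {h | TT L h}, ∃ G ∈ Mod L {h | TT L h}, 0 < P1 L t F G :=
  pos_of_eigen (E := TTs L) (fun u _ hu => hdef u hu) (H468.BB L hd3.le he)
    (fun u hu => H468.BB_TT hd3.le he hu) (fun u hu v hv => H468.BB_symm hd3.le he hu hv)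
    (fun u hu v hv _ b' _ hv' huv => H468.cross_eigen he hd3 hdef hu hv hv' (hL v) huv)
    (fun u hu b hb h0 => hpos u hu b hb h0) ht ht0

/-- the form `S₀`: positivity for the functions of type `(0,0) + (2,0)` -/
def S0At (Φ : Flw L) (φ w : W) : Prop :=
  φ + w ≠ 0 → ∀ M : Submodule ℝ W, Stable L M → (∀ t, ∀ u ∈ M, Φ.U t u ∈ M) → φ ∈ M → w ∈ M →
    ∃ F₁ ∈ M, ∃ G₁ ∈ M, ∃ F₂ ∈ M, ∃ G₂ ∈ M, 0 < PP L (φ + w) F₁ G₁ F₂ G₂

/-- **assembly of the certificate** -/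
theorem certAt_of (Φ : Flw L) (hd3 : 2 < L.d) (he : 0 ≤ L.e) (hn : 4 < dim L)
    (hL : ∀ f, L.Lam f = lam • f) (hdef : ∀ f, L.ip f f = 0 → f = 0)
    (hfd : FiniteDimensional ℝ (TTs L))
    (hpos : ∀ u, TT L u → ∀ b : ℝ, H468.BB L hd3.le he u = b • u → 0 < L.ip u u →
      ∃ F ∈ Mod L {u}, ∃ G ∈ Mod L {u}, 0 < P1 L u F G) {φ w t : W}
    (hlam : t ≠ 0 → 0 ≤ lam) (hS0 : (φ ≠ 0 → 0 < lam) → S0At Φ φ w) :
    CertAt L lam φ w t := by
  intro hφ hw ht hl hne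
  set M₀ := Mod L {u | Typ L 0 0 u ∨ Typ L 2 0 u} with hM₀
  set N₀ := Mod L {h | TT L h} with hN₀
  have hfil : N₀ ≤ H316.Fil L := H316.Mod_le_Fil (by linarith) hdef fun u hu =>
    ⟨2, 2, by exact_mod_cast (show TT L u from hu).typ⟩
  obtain ⟨M', N', h1, h2, h3, h4, h5, h6, h7⟩ := H316.cross_flow (Φ := Φ) hn hdef hL
    (stable_Mod L _) (stable_Mod L _) (H468.cross_low he hd3 hdef) hfil
  have mφ : φ ∈ M' := h1 (subset_Mod L _ (Or.inl hφ))
  have mw : w ∈ M' := h1 (subset_Mod L _ (Or.inr hw))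
  have mt : t ∈ N' := h2 (subset_Mod L _ ht)
  refine low_lad Φ hL he (by linarith) h7 h3 h4 h6 (M'.add_mem mφ mw) mt
    (fun h0 => hS0 hl h0 M' h3 h5 mφ mw) (fun ht0 => ⟨hlam ht0, ?_⟩) hne
  obtain ⟨F, hF, G, hG, hFG⟩ := s2_sum hd3 he hL hdef hfd hpos ht ht0
  exact ⟨F, h2 hF, G, h2 hG, hFG⟩

/-- the certificate for the quaternionic hyperbolic spaces -/
theorem certAt_H (Φ : Flw L) {m : ℝ} (hd : L.d = 3) (he : L.e = 4 * m - 4) (hm : 2 ≤ m)
    (hL : ∀ f, L.Lam f = lam • f) (hdef : ∀ f, L.ip f f = 0 → f = 0)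
    (hfd : FiniteDimensional ℝ (TTs L)) {φ w t : W}
    (hlam : t ≠ 0 → 0 ≤ lam) (hS0 : (φ ≠ 0 → 0 < lam) → S0At Φ φ w) :
    CertAt L lam φ w t := by
  have hd3 : 2 < L.d := by rw [hd]; norm_num
  have he0 : 0 ≤ L.e := by rw [he]; linarith
  have hn : 4 < dim L := by unfold dim; rw [hd, he]; linarith
  refine certAt_of Φ hd3 he0 hn hL hdef hfd (fun u hu b hb h0 => ?_) hlam hS0
  exact H639.S2_H hd he hm hu (hL u) hd3.le he0 ((H468.BB_eq_iff L hd3.le he0 u b).1 hb) h0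

/-- the certificate for the Cayley plane -/
theorem certAt_C (Φ : Flw L) (hd : L.d = 7) (he : L.e = 8)
    (hL : ∀ f, L.Lam f = lam • f) (hdef : ∀ f, L.ip f f = 0 → f = 0)
    (hfd : FiniteDimensional ℝ (TTs L)) {φ w t : W} (ht : TT L t)
    (hS0 : (φ ≠ 0 → 0 < lam) → S0At Φ φ w) :
    CertAt L lam φ w t := by
  have hd3 : 2 < L.d := by rw [hd]; norm_num
  have he0 : 0 ≤ L.e := by rw [he]; norm_num
  have hn : 4 < dim L := by unfold dim; rw [hd, he]; norm_num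
  refine certAt_of Φ hd3 he0 hn hL hdef hfd (fun u hu b hb h0 => ?_) (fun ht0 => ?_) hS0
  · exact H639.S2_C hd he hu (hL u) hd3.le he0 ((H468.BB_eq_iff L hd3.le he0 u b).1 hb) h0
  · obtain ⟨u, b, hu, hb, h0⟩ := exists_joint hd3.le he0 hdef hfd ht ht0
    have h1 := H639.lam_C hd he hu (hL u) hd3.le he0 ((H468.BB_eq_iff L hd3.le he0 u b).1 hb) h0
    linarith

end Vale.Agent.P207.Low
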