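import Vale.Agent.P207.H391.PiAt
import Vale.Agent.P207.Low.Eig

/-!
# P207, block LOW: restriction of the flow to a stable submodule; positivity on an eigenspace
-/

noncomputable section

universe u

namespace Vale.Agent.P207.Low

open Vale.Agent.P207.H662 Vale.Agent.P207.H391

variable {W : Type u} [AddCommGroup W] [Module ℝ W]

/-- the flow on a stable submodule -/
def flwSub {L : Lad W} (Φ : Flw L) (N : Submodule ℝ W) (hN : Stable L N)
    (hU : ∀ t, ∀ u ∈ N, Φ.U t u ∈ N) : Flw (sub L N hN) where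
  U t := (Φ.U t).restrict (hU t)
  zero f := Subtype.ext (Φ.zero f)
  add s t f := Subtype.ext (Φ.add s t f)
  iso t f g := Φ.iso t f g
  der f g := Φ.der f g
  dΔ1 f g := Φ.dΔ1 f g
  dE1 f g := Φ.dE1 f g
  dS1 f g := Φ.dS1 f g
  dΔ2 f g := Φ.dΔ2 f g
  dE2 f g := Φ.dE2 f g
  dS2 f g := Φ.dS2 f g

theorem coe_flwSub {L : Lad W} (Φ : Flw L) (N : Submodule ℝ W) (hN : Stable L N)
    (hU : ∀ t, ∀ u ∈ N, Φ.U t u ∈ N) (t : ℝ) (f : N) :
    (((flwSub Φ N hN hU).U t f : N) : W) = Φ.U t (f : W) := rfl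

/-- the space of the functions of type `(2,2)` which are divergence free -/
def TTs (L : Lad W) : Submodule ℝ W where
  carrier := {h | TT L h}
  add_mem' := by
    intro a b ha hb
    refine ⟨⟨?_, ?_⟩, ?_⟩
    · rw [map_add, ha.typ.D2, hb.typ.D2, smul_add]
    · rw [map_add, ha.typ.D, hb.typ.D, smul_add]
    · rw [map_add, map_add, ha.div, hb.div, smul_add]
  zero_mem' := by
    refine ⟨⟨?_, ?_⟩, ?_⟩
    · rw [map_zero, smul_zero]
    · rw [map_zero, smul_zero]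
    · rw [map_zero, map_zero, smul_zero]
  smul_mem' := by
    intro c a ha
    refine ⟨⟨?_, ?_⟩, ?_⟩
    · rw [map_smul, ha.typ.D2, smul_comm]
    · rw [map_smul, ha.typ.D, smul_comm]
    · rw [map_smul, map_smul, ha.div, smul_comm]

theorem mem_TTs {L : Lad W} {h : W} : h ∈ TTs L ↔ TT L h := Iff.rfl

/-- **positivity of the form on an eigenspace of `Λ`** from the positivity of the two parts -/
theorem low_lad {L : Lad W} (Φ : Flw L) {lam : ℝ} (hL : ∀ f, L.Lam f = lam • f)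
    (he : 0 ≤ L.e) (hd : 0 ≤ L.d) {M N : Submodule ℝ W} (hP : Perp L M N) (hM : Stable L M)
    (hN : Stable L N) (hNU : ∀ t, ∀ u ∈ N, Φ.U t u ∈ N) {g h : W} (hg : g ∈ M) (hh : h ∈ N)
    (h0 : g ≠ 0 → ∃ F₁ ∈ M, ∃ G₁ ∈ M, ∃ F₂ ∈ M, ∃ G₂ ∈ M, 0 < PP L g F₁ G₁ F₂ G₂)
    (h2 : h ≠ 0 → 0 ≤ lam ∧ ∃ F' ∈ N, ∃ G' ∈ N, 0 < P1 L h F' G')
    (hne : ¬ (g = 0 ∧ h = 0)) :
    ∃ F₁ G₁ F₂ G₂ : W, 0 < PP L (g + h) F₁ G₁ F₂ G₂ := by
  refine assemble L hP hM hN hg hh h0 (fun hh0 => ?_) hne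
  obtain ⟨hlam, F', hF', G', hG', hpos⟩ := h2 hh0
  exact pos_of_PI L (piAt Φ he hd hlam (hL h) hNU hh hF' hG') hpos

end Vale.Agent.P207.Low
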