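import Vale.Agent.P207.Low.Cert
import Vale.Agent.P207.H662.ScT

/-!
# P207, block LOW: finite dimension and flow on one eigenspace (abstract calculus)
-/

open Finset

set_option linter.unusedSectionVars false
set_option maxSynthPendingDepth 3

noncomputable section

universe u

namespace Vale.Agent.P207.Low

open Vale.Agent.P207.H662 Vale.Agent.P207.H391 Vale.Agent.P207.H442 Vale.Agent.P207
  Vale.Agent.P207.H469 Vale.Agent.P207.H546 Vale.Agent.P207.H158

/-! ### one eigenspace -/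

section Fr

variable {m : ℕ} {A : Type u} [CommRing A] [Algebra ℝ A] {C : FrCalc (m + 1) A}
  {I : A →ₗ[ℝ] ℝ} {d : ℝ} (h : Rk1 C d) (hI : C.IsInt I) (hp : ∀ f, 0 ≤ I (f * f))
  {ι : Type*} (S : StabAct C ι)

theorem sum_K_vv (f : h.sys.B) : ∑ i : Fin m, ∑ j : Fin m,
    Kc C i j * C.V i.succ 0 (C.V j.succ 0 (f : A)) =
    - ((((h.lad hI hp).D f : h.sys.B) : A) + (3 : ℝ) • (((h.lad hI hp).L2.Δ f : h.sys.B) : A)) := by
  have e1 : (((h.lad hI hp).D f : h.sys.B) : A) = - ∑ i : Fin m, ∑ j : Fin m,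
      kr i j 1 * C.V i.succ 0 (C.V j.succ 0 (f : A)) := by
    rw [D_coe]
    unfold KF.Dt
    rw [Fin.sum_univ_succ, FrCalc.V_self, zero_add]
    congr 1
    refine sum_congr rfl fun i _ => ?_
    exact (sum_kr_mul i fun j => C.V i.succ 0 (C.V j.succ 0 (f : A))).symm
  have e2 : (((h.lad hI hp).L2.Δ f : h.sys.B) : A) = - ∑ i : Fin m, ∑ j : Fin m,
      Pc C i j * C.V i.succ 0 (C.V j.succ 0 (f : A)) := by
    have e0 : (((h.lad hI hp).L2.Δ f : h.sys.B) : A) = h.sys.Dl h.sys.P (f : A) := rfl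
    rw [e0, Sys.Dl_apply]
    rfl
  rw [e1, e2, smul_neg, ← neg_add, neg_neg, smul_sum, ← sum_add_distrib]
  refine sum_congr rfl fun i _ => ?_
  rw [smul_sum, ← sum_add_distrib]
  refine sum_congr rfl fun j _ => ?_
  rw [K_eq, Algebra.smul_def, map_ofNat]
  ring

/-- the rough Laplacian on the functions of type `(2,2)` in an eigenspace -/
theorem lap_tt {lam : ℝ} {f : h.sys.B} (hlam : (h.lad hI hp).Lam f = lam • f)
    (ht : Typ (h.lad hI hp) 2 2 f) :
    C.lap (f : A) = (-(lam + (2 * (2 + ((m : ℝ) + 1) - 2)) + 3 * (2 * (2 + d - 1)))) • (f : A) := by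
  have h1 : C.cas (f : A) = - (lam • (f : A)) := by
    have h2 := lad_Lam h hI hp f
    rw [hlam] at h2
    have h3 : lam • (f : A) = - C.cas (f : A) := h2
    rw [h3, neg_neg]
  have h2 : C.cas (f : A) = C.lap f - ∑ i : Fin m, ∑ j : Fin m,
      Kc C i j * C.V i.succ 0 (C.V j.succ 0 f) := by
    unfold FrCalc.cas
    rw [curv_B h f.2, smul_smul]
    norm_num
  have h3 : (((h.lad hI hp).D f : h.sys.B) : A) = (2 * (2 + ((m : ℝ) + 1) - 2)) • (f : A) := by
    have h4 := ht.D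
    rw [dim_lad] at h4
    rw [h4]
    rfl
  have h5 : (((h.lad hI hp).L2.Δ f : h.sys.B) : A) = (2 * (2 + d - 1)) • (f : A) :=
    congrArg Subtype.val ht.D2
  rw [sum_K_vv h hI hp f, h3, h5, h1] at h2
  have h6 : C.lap (f : A) = - (lam • (f : A)) - ((2 * (2 + ((m : ℝ) + 1) - 2)) • (f : A) +
      (3 : ℝ) • (2 * (2 + d - 1)) • (f : A)) := by
    rw [h2]; abel
  rw [h6]
  module

theorem vv_B (f : h.sys.B) : ∑ a, ∑ b, C.V a b (C.V a b (f : A)) =
    -(2 : ℝ) • (((h.lad hI hp).D f : h.sys.B) : A) := by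
  have hr : ∀ i j : Fin m, C.V i.succ j.succ (f : A) = 0 := f.2
  have e1 : ∀ i : Fin m, ∑ b, C.V i.succ b (C.V i.succ b (f : A)) =
      C.V i.succ 0 (C.V i.succ 0 (f : A)) := by
    intro i
    rw [Fin.sum_univ_succ, sum_eq_zero fun j _ => by rw [hr, map_zero], add_zero]
  have e2 : ∑ b, C.V 0 b (C.V 0 b (f : A)) = ∑ i : Fin m, C.V i.succ 0 (C.V i.succ 0 (f : A)) := by
    rw [Fin.sum_univ_succ, FrCalc.V_self, zero_add]
    refine sum_congr rfl fun i _ => ?_
    rw [C.V_swap 0 i.succ, C.V_swap 0 i.succ f, map_neg, neg_neg]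
  have e3 : KF.Dt C (f : A) = - ∑ i : Fin m, C.V i.succ 0 (C.V i.succ 0 (f : A)) := by
    unfold KF.Dt
    rw [Fin.sum_univ_succ, FrCalc.V_self, zero_add]
  rw [Fin.sum_univ_succ, sum_congr rfl fun i _ => e1 i, e2, D_coe, e3]
  module

/-- finite dimension of joint eigenspaces of the rough and the vertical Laplacian -/
def FDs (C : FrCalc (m + 1) A) : Prop := ∀ (μ₁ μ₂ : ℝ) (V : Submodule ℝ A),
  (∀ f ∈ V, C.lap f = μ₁ • f ∧ ∑ a, ∑ b, C.V a b (C.V a b f) = μ₂ • f) → FiniteDimensional ℝ V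

/-- the space of the divergence free functions of type `(2,2)` in an eigenspace -/
theorem fd_TTs (hfd : FDs C) (lam : ℝ) : FiniteDimensional ℝ (TTs (ladE h hI hp S lam)) := by
  let J : TTs (ladE h hI hp S lam) →ₗ[ℝ] A :=
    h.sys.B.subtype.comp ((WE h hI hp S lam).subtype.comp (TTs (ladE h hI hp S lam)).subtype)
  have hJ : Function.Injective J := by
    intro a b hab
    exact Subtype.ext (Subtype.ext (Subtype.ext hab))
  have hV : FiniteDimensional ℝ (LinearMap.range J) := by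
    refine hfd (-(lam + (2 * (2 + ((m : ℝ) + 1) - 2)) + 3 * (2 * (2 + d - 1))))
      (-(2 : ℝ) * (2 * (2 + ((m : ℝ) + 1) - 2))) _ ?_
    rintro _ ⟨u, rfl⟩
    have h1 : TT (h.lad hI hp) ((u : WE h hI hp S lam) : h.sys.B) := sub_TT.1 u.2
    have h2 : (h.lad hI hp).Lam ((u : WE h hI hp S lam) : h.sys.B) =
        lam • ((u : WE h hI hp S lam) : h.sys.B) := (u : WE h hI hp S lam).2.2
    refine ⟨lap_tt h hI hp h2 h1.typ, ?_⟩
    have h3 := vv_B h hI hp ((u : WE h hI hp S lam) : h.sys.B)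
    have h4 := h1.typ.D
    rw [dim_lad] at h4
    rw [h4] at h3
    refine h3.trans ?_
    exact smul_smul (-(2 : ℝ)) (2 * (2 + ((m : ℝ) + 1) - 2))
      ((((u : WE h hI hp S lam) : h.sys.B)) : A)
  exact FiniteDimensional.of_injective (J.rangeRestrict) (by
    intro a b hab
    exact hJ (congrArg (fun z : LinearMap.range J => (z : A)) hab))

variable (Φ : Flw (h.lad hI hp))

/-- the flow on one eigenspace -/
theorem U_mem_WE {lam : ℝ} (hs : ∀ t, ∀ f : h.sys.B, (f : A) ∈ S.toRotAct.scal →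
      ((Φ.U t f : h.sys.B) : A) ∈ S.toRotAct.scal)
    (hΛ : ∀ t, ∀ f : h.sys.B, (h.lad hI hp).Lam (Φ.U t f) = Φ.U t ((h.lad hI hp).Lam f)) :
    ∀ t, ∀ u ∈ WE h hI hp S lam, Φ.U t u ∈ WE h hI hp S lam := by
  intro t u hu
  refine ⟨hs t u hu.1, ?_⟩
  rw [SetLike.mem_coe, mem_eigLam, hΛ, show (h.lad hI hp).Lam u = lam • u from hu.2, map_smul]

end Fr

end Vale.Agent.P207.Low
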