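import Vale.Agent.P207.Low.FrA
import Vale.Agent.P207.H575.T20Lad

/-!
# P207, block LOW: the lower bound of the eigenvalue for the part of type `(2,2)`
(quaternionic case)
-/

open Finset

set_option linter.unusedSectionVars false
set_option maxSynthPendingDepth 3

noncomputable section

namespace Vale.Agent.P207.Low

open Vale.Agent.P207.H662 Vale.Agent.P207.H442 Vale.Agent.P207.H442.FrCalc
  Vale.Agent.P207.H469 Vale.Agent.P207

variable {m : ℕ} {A : Type*} [CommRing A] [Algebra ℝ A] {C : FrCalc (m + 1) A}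
  {I : A →ₗ[ℝ] ℝ} {ι : Type*} {E : ι → A →ₐ[ℝ] ℝ}

/-- `t ≠ 0` implies `4 (m + 1) - 32 ≤ λ` for the part `t` of type `(2,2)` of a symmetric tensor,
if this part is divergence free -/
theorem tt_ge {k : Fin (m + 1) → Fin (m + 1) → A} (hQ : C.Qp E) (hI : C.IsInt I)
    (hp : ∀ f, 0 ≤ I (f * f)) (hdef : ∀ f, I (f * f) = 0 → f = 0) (hn : m + 1 ≠ 4)
    (h : Rk1 C 3) (hR : RankOne C 2 (m + 3 * 3)) (hk : C.T2 k) (hs : ∀ i j, k i j = k j i)
    (hdiv : ∀ j, Kat.divf C (k22 C 2 (m + 3 * 3) k) j = 0)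
    {lam : ℝ} (hcas : ∀ i j, C.cas (k i j) = (-lam) • k i j) (hne : ttB h hk ≠ 0) :
    4 * ((m : ℝ) + 1) - 32 ≤ lam := by
  have hcm := mapF_k22 (C := C) (b := 2) (c₀ := (m : ℝ) + 3 * 3) (D := C.casL)
    (fun i j k l f => cas_R h.par i j k l f) k
  have hkc : mapF C.casL k = (-lam) • k := by
    funext i j
    exact hcas i j
  rw [hkc, map_smul] at hcm
  refine Qp.lam_ge' hQ hI hp hn h (T2_k22 hk (b := 2) (c₀ := (m : ℝ) + 3 * 3)) (k22_symm hs)
    (hR.tr2_k22 k) hdiv (fun i j => ?_) (fun i j => ?_) ?_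
  · have h1 := congrFun (congrFun (hR.Ro_k22 hs) i) j
    rw [Ro_apply] at h1
    rw [h1, Pi.smul_apply, Pi.smul_apply, ← neg_smul]
    congr 1
    norm_num
  · have h1 := congrFun (congrFun hcm i) j
    change C.cas (k22 C 2 ((m : ℝ) + 3 * 3) k i j) = _ at h1
    rw [h1, ← neg_smul]
    rfl
  · have h1 : (h.lad hI hp).ip (ttB h hk) (ttB h hk) ≠ 0 := by
      intro h0
      exact hne (Subtype.ext (hdef _ h0))
    exact lt_of_le_of_ne (hp _) (Ne.symm h1)

end Vale.Agent.P207.Low
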